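import Vale.Agent.Lib.P230.Skew.Defs

/-!
# P230 skew route, module S1: sums of periodic functions over the fundamental box.
-/

set_option autoImplicit false

open Finset

namespace Vale.Agent.Lib.P230.Skew

variable {t : ℕ}

theorem mem_box {Q i : ℕ} {x : Fin t → ℤ} :
    x ∈ box Q i ↔ ∀ j : Fin t, (j.val < i → 0 ≤ x j ∧ x j < Q) ∧ (¬ j.val < i → x j = 0) := by
  simp only [box, Fintype.mem_piFinset]
  constructor
  · intro h j
    have hj := h j
    constructor
    · intro hlt
      rw [if_pos hlt, Finset.mem_Ico] at hj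
      exact hj
    · intro hlt
      rw [if_neg hlt, Finset.mem_singleton] at hj
      exact hj
  · intro h j
    by_cases hlt : j.val < i
    · rw [if_pos hlt, Finset.mem_Ico]
      exact (h j).1 hlt
    · rw [if_neg hlt, Finset.mem_singleton]
      exact (h j).2 hlt

theorem box_zero {Q : ℕ} : box (t := t) Q 0 = {0} := by
  ext x
  rw [mem_box, Finset.mem_singleton]
  constructor
  · intro h
    funext j
    exact (h j).2 (Nat.not_lt_zero _)
  · rintro rfl j
    exact ⟨fun h => absurd h (Nat.not_lt_zero _), fun _ => rfl⟩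

/-- Splitting the box of level `i + 1`. -/
theorem sum_box_succ {Q i : ℕ} (hi : i < t) (F : (Fin t → ℤ) → ℝ) :
    ∑ x ∈ box Q (i + 1), F x =
      ∑ a ∈ Finset.Ico (0 : ℤ) Q, ∑ x' ∈ box Q i, F (x' + Pi.single (⟨i, hi⟩ : Fin t) a) := by
  set I : Fin t := ⟨i, hi⟩ with hI
  rw [Finset.sum_comm, ← Finset.sum_product']
  symm
  refine Finset.sum_nbij' (fun p => p.1 + Pi.single I p.2)
    (fun x => (Function.update x I 0, x I)) ?_ ?_ ?_ ?_ ?_
  · rintro ⟨x', a⟩ hp
    rw [Finset.mem_product] at hp
    obtain ⟨hx', ha⟩ := hp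
    rw [mem_box] at hx' ⊢
    rw [Finset.mem_Ico] at ha
    intro j
    have hxj := hx' j
    by_cases hj : j = I
    · subst hj
      have hx0 : x' I = 0 := hxj.2 (by simp [hI])
      simp only [Pi.add_apply, Pi.single_eq_same, hx0, zero_add]
      exact ⟨fun _ => ha, fun h => absurd (by simp [hI]) h⟩
    · have hjne : j.val ≠ i := fun h => hj (Fin.ext h)
      simp only [Pi.add_apply, Pi.single_eq_of_ne hj, add_zero]
      exact ⟨fun h => hxj.1 (by omega), fun h => hxj.2 (by omega)⟩
  · intro x hx
    rw [mem_box] at hx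
    rw [Finset.mem_product, mem_box, Finset.mem_Ico]
    refine ⟨?_, (hx I).1 (by simp [hI])⟩
    intro j
    by_cases hj : j = I
    · subst hj
      simp only [Function.update_self]
      exact ⟨fun h => absurd h (by simp [hI]), fun _ => by simp⟩
    · have hjne : j.val ≠ i := fun h => hj (Fin.ext h)
      simp only [Function.update_of_ne hj]
      exact ⟨fun h => (hx j).1 (by omega), fun h => (hx j).2 (by omega)⟩
  · rintro ⟨x', a⟩ hp
    rw [Finset.mem_product] at hp
    obtain ⟨hx', -⟩ := hp
    rw [mem_box] at hx'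
    have hx0 : x' I = 0 := (hx' I).2 (by simp [hI])
    ext j
    · by_cases hj : j = I
      · subst hj
        simp [hx0]
      · simp [Function.update_of_ne hj, Pi.single_eq_of_ne hj]
    · simp [hx0]
  · intro x _
    funext j
    by_cases hj : j = I
    · subst hj
      simp
    · simp [Function.update_of_ne hj, Pi.single_eq_of_ne hj]
  · intro _ _
    rfl

/-- A periodic function on a complete residue system. -/
theorem sum_Ico_periodic {Q : ℤ} (hQ : 0 < Q) (G : ℤ → ℝ) (hG : ∀ c, G (c + Q) = G c) (c : ℤ) :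
    ∑ a ∈ Finset.Ico (0 : ℤ) Q, G (c - a) = ∑ a ∈ Finset.Ico (0 : ℤ) Q, G a := by
  have hper : Function.Periodic G Q := hG
  have hmod : ∀ n : ℤ, G (n % Q) = G n := fun n => by
    have h := (hper.int_mul (-(n / Q))) n
    have e : n + -(n / Q) * Q = n % Q := by
      have := Int.emod_add_mul_ediv n Q
      have e' : -(n / Q) * Q = - (Q * (n / Q)) := by ring
      rw [e']
      linarith
    -- `h : G (n + (-(n / Q) : ℤ) * Q) = G n` up to the cast
    have h' : G (n + -(n / Q) * Q) = G n := by simpa using h
    rwa [e] at h'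
  have hinv : ∀ a : ℤ, 0 ≤ a → a < Q → (c - (c - a) % Q) % Q = a := by
    intro a ha0 ha1
    have h1 : (c - (c - a) % Q) % Q = (c - (c - a)) % Q := by
      rw [Int.sub_emod, Int.emod_emod_of_dvd _ (dvd_refl Q), ← Int.sub_emod]
    rw [h1, sub_sub_cancel, Int.emod_eq_of_lt ha0 ha1]
  refine Finset.sum_nbij' (fun a => (c - a) % Q) (fun a => (c - a) % Q) ?_ ?_ ?_ ?_ ?_
  · intro a _
    rw [Finset.mem_Ico]
    exact ⟨Int.emod_nonneg _ hQ.ne', Int.emod_lt_of_pos _ hQ⟩
  · intro a _
    rw [Finset.mem_Ico]
    exact ⟨Int.emod_nonneg _ hQ.ne', Int.emod_lt_of_pos _ hQ⟩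
  · intro a ha
    rw [Finset.mem_Ico] at ha
    exact hinv a ha.1 ha.2
  · intro a ha
    rw [Finset.mem_Ico] at ha
    exact hinv a ha.1 ha.2
  · intro a _
    exact (hmod _).symm

/-- Periodicity also backwards. -/
theorem Per.sub_gen {Q i : ℕ} {b : Fin t → Fin t → ℤ} {f : (Fin t → ℤ) → ℝ} (hf : Per Q b i f)
    (j : Fin t) (hj : j.val < i) (y : Fin t → ℤ) : f (y - gen Q b j) = f y := by
  have h := hf.per j hj (y - gen Q b j)
  rw [sub_add_cancel] at h
  exact h.symm

/-- The reflected function is periodic. -/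
theorem Per.reflect {Q i : ℕ} {b : Fin t → Fin t → ℤ} {f : (Fin t → ℤ) → ℝ} (hf : Per Q b i f)
    (y : Fin t → ℤ) : Per Q b i (fun w => f (y - w)) where
  dep := by
    intro u v h
    apply hf.dep
    intro j hj
    simp only [Pi.sub_apply, h j hj]
  per := by
    intro j hj u
    have e : y - (u + gen Q b j) = (y - u) - gen Q b j := by abel
    simp only [e]
    exact hf.sub_gen j hj _

/-- The translation statement from the reflection statement. -/
theorem add_of_sub {Q i : ℕ} {b : Fin t → Fin t → ℤ}
    (h : ∀ f : (Fin t → ℤ) → ℝ, Per Q b i f → ∀ y, ∑ x ∈ box Q i, f (y - x) = ∑ x ∈ box Q i, f x)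
    (f : (Fin t → ℤ) → ℝ) (hf : Per Q b i f) (y : Fin t → ℤ) :
    ∑ x ∈ box Q i, f (x + y) = ∑ x ∈ box Q i, f x := by
  have h1 := h _ (hf.reflect y) 0
  have h2 := h f hf y
  simp only [zero_sub, sub_neg_eq_add] at h1
  rw [← h2, ← h1]
  refine Finset.sum_congr rfl fun x _ => ?_
  rw [add_comm]

/-- `gen j` vanishes on coordinates above `j`. -/
theorem gen_apply_of_lt {Q : ℕ} {b : Fin t → Fin t → ℤ} {j I : Fin t} (h : j < I) :
    gen Q b j I = 0 := by
  have h1 : I ≠ j := (ne_of_lt h).symm
  have h2 : ¬ I < j := not_lt_of_gt h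
  simp [gen, h1, h2]

theorem gen_apply_self {Q : ℕ} {b : Fin t → Fin t → ℤ} (j : Fin t) : gen Q b j j = (Q : ℤ) := by
  simp [gen]

theorem sum_box_sub_aux {Q : ℕ} (hQ : 0 < Q) (b : Fin t → Fin t → ℤ) (i : ℕ) (hi : i ≤ t) :
    ∀ f : (Fin t → ℤ) → ℝ, Per Q b i f → ∀ y, ∑ x ∈ box Q i, f (y - x) = ∑ x ∈ box Q i, f x := by
  induction i with
  | zero =>
    intro f hf y
    rw [box_zero]
    simp only [Finset.sum_singleton, sub_zero]
    exact hf.dep _ _ (fun j hj => absurd hj (Nat.not_lt_zero _))
  | succ i ih =>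
    intro f hf y
    have hit : i < t := hi
    have IH := ih (by omega)
    set I : Fin t := ⟨i, hit⟩ with hI
    have hIv : I.val = i := rfl
    -- the sections
    let g : ℤ → (Fin t → ℤ) → ℝ := fun c w => f (Function.update w I c)
    have hg : ∀ c, Per Q b i (g c) := by
      intro c
      refine ⟨?_, ?_⟩
      · intro u v huv
        apply hf.dep
        intro j hj
        by_cases hjI : j = I
        · subst hjI
          simp
        · have hjne : j.val ≠ i := fun h => hjI (Fin.ext h)
          simp only [Function.update_of_ne hjI]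
          exact huv j (by omega)
      · intro j hj u
        have hjI : j < I := hj
        have e : Function.update (u + gen Q b j) I c = Function.update u I c + gen Q b j := by
          funext l
          by_cases hl : l = I
          · subst hl
            simp [gen_apply_of_lt hjI]
          · simp [Function.update_of_ne hl]
        simp only [g, e]
        exact hf.per j (by omega) _
    -- the section sums
    let G : ℤ → ℝ := fun c => ∑ x ∈ box Q i, g c x
    have hshift : ∀ c w, g (c + Q) w = g c (w - gen Q b I) := by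
      intro c w
      have e : Function.update w I (c + Q) = Function.update (w - gen Q b I) I c + gen Q b I := by
        funext l
        by_cases hl : l = I
        · subst hl
          simp [gen_apply_self]
        · simp [Function.update_of_ne hl]
      simp only [g, e]
      exact hf.per I (by omega) _
    have hGper : ∀ c, G (c + (Q : ℤ)) = G c := by
      intro c
      simp only [G, hshift]
      have := add_of_sub IH (g c) (hg c) (- gen Q b I)
      simpa [sub_eq_add_neg] using this
    have hbox0 : ∀ x' ∈ box Q i, x' I = 0 := by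
      intro x' hx'
      rw [mem_box] at hx'
      exact (hx' I).2 (by omega)
    have hleft : ∀ a : ℤ, ∀ x' ∈ box Q i,
        f (y - (x' + Pi.single I a)) = g (y I - a) (y - x') := by
      intro a x' hx'
      have e : y - (x' + Pi.single I a) = Function.update (y - x') I (y I - a) := by
        funext l
        by_cases hl : l = I
        · subst hl
          simp [hbox0 x' hx']
        · simp [Function.update_of_ne hl, Pi.single_eq_of_ne hl]
      simp only [g, e]
    have hright : ∀ a : ℤ, ∀ x' ∈ box Q i, f (x' + Pi.single I a) = g a x' := by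
      intro a x' hx'
      have e : x' + Pi.single I a = Function.update x' I a := by
        funext l
        by_cases hl : l = I
        · subst hl
          simp [hbox0 x' hx']
        · simp [Function.update_of_ne hl, Pi.single_eq_of_ne hl]
      simp only [g, e]
    rw [sum_box_succ hit, sum_box_succ hit]
    calc ∑ a ∈ Finset.Ico (0 : ℤ) Q, ∑ x' ∈ box Q i, f (y - (x' + Pi.single I a))
        = ∑ a ∈ Finset.Ico (0 : ℤ) Q, G (y I - a) := by
          refine Finset.sum_congr rfl fun a _ => ?_
          rw [Finset.sum_congr rfl (hleft a)]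
          exact IH _ (hg _) y
      _ = ∑ a ∈ Finset.Ico (0 : ℤ) Q, G a :=
          sum_Ico_periodic (by exact_mod_cast hQ) G hGper _
      _ = ∑ a ∈ Finset.Ico (0 : ℤ) Q, ∑ x' ∈ box Q i, f (x' + Pi.single I a) := by
          refine Finset.sum_congr rfl fun a _ => ?_
          exact (Finset.sum_congr rfl (hright a)).symm

/-- MODULE S1a (Box.lean). A periodic function sums over every translate of the reflected box to the same
value. -/
theorem sum_box_sub {Q i : ℕ} (hQ : 0 < Q) (hi : i ≤ t) (b : Fin t → Fin t → ℤ) (f : (Fin t → ℤ) → ℝ)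
    (hf : Per Q b i f) (y : Fin t → ℤ) :
    ∑ x ∈ box Q i, f (y - x) = ∑ x ∈ box Q i, f x :=
  sum_box_sub_aux hQ b i hi f hf y

/-- MODULE S1a' (Box.lean). Same for translates of the box. -/
theorem sum_box_add {Q i : ℕ} (hQ : 0 < Q) (hi : i ≤ t) (b : Fin t → Fin t → ℤ) (f : (Fin t → ℤ) → ℝ)
    (hf : Per Q b i f) (y : Fin t → ℤ) :
    ∑ x ∈ box Q i, f (x + y) = ∑ x ∈ box Q i, f x :=
  add_of_sub (sum_box_sub_aux hQ b i hi) f hf y

theorem lin_add {Q : ℕ} (b : Fin t → Fin t → ℤ) (z w : Fin t → ℤ) :
    lin Q b (z + w) = lin Q b z + lin Q b w := by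
  simp [lin, add_smul, Finset.sum_add_distrib]

theorem lin_single {Q : ℕ} (b : Fin t → Fin t → ℤ) (I : Fin t) (k : ℤ) :
    lin Q b (Pi.single I k) = k • gen Q b I := by
  simp only [lin]
  rw [Finset.sum_eq_single I]
  · simp
  · intro l _ hl
    simp [Pi.single_eq_of_ne hl]
  · simp

theorem lin_apply_of_support {Q i : ℕ} (b : Fin t → Fin t → ℤ) {z : Fin t → ℤ}
    (hz : ∀ j : Fin t, i ≤ j.val → z j = 0) (I : Fin t) (hI : i ≤ I.val) : lin Q b z I = 0 := by
  simp only [lin, Finset.sum_apply, Pi.smul_apply, smul_eq_mul]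
  apply Finset.sum_eq_zero
  intro l _
  by_cases hl : i ≤ l.val
  · rw [hz l hl, zero_mul]
  · have hlI : l < I := by
      change l.val < I.val
      omega
    rw [gen_apply_of_lt hlI, mul_zero]

/-- MODULE S1b (Box.lean). Reduction to the box by generators below `i`. -/
theorem exists_box_rep {Q i : ℕ} (hQ : 0 < Q) (hi : i ≤ t) (b : Fin t → Fin t → ℤ) (y : Fin t → ℤ) :
    ∃ z : Fin t → ℤ, (∀ j : Fin t, i ≤ j.val → z j = 0) ∧
      ∀ j : Fin t, j.val < i → 0 ≤ (y - lin Q b z) j ∧ (y - lin Q b z) j < Q := by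
  induction i generalizing y with
  | zero =>
    exact ⟨0, fun _ _ => rfl, fun j hj => absurd hj (Nat.not_lt_zero _)⟩
  | succ i ih =>
    have hit : i < t := hi
    set I : Fin t := ⟨i, hit⟩ with hI
    have hQ' : (0 : ℤ) < Q := by exact_mod_cast hQ
    set k : ℤ := y I / (Q : ℤ) with hk
    obtain ⟨z', hz', hrep⟩ := ih (by omega) (y - k • gen Q b I)
    refine ⟨z' + Pi.single I k, ?_, ?_⟩
    · intro j hj
      have hjI : j ≠ I := fun h => by
        rw [h] at hj
        simp [hI] at hj
      simp [hz' j (by omega), Pi.single_eq_of_ne hjI]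
    · have e : y - lin Q b (z' + Pi.single I k) = (y - k • gen Q b I) - lin Q b z' := by
        rw [lin_add, lin_single]
        abel
      intro j hj
      rw [e]
      by_cases hjI : j.val < i
      · exact hrep j hjI
      · have hjeq : j = I := Fin.ext (by simp [hI]; omega)
        subst hjeq
        have h0 : lin Q b z' I = 0 := lin_apply_of_support b hz' I (le_refl _)
        have hval : (y - k • gen Q b I - lin Q b z') I = y I % (Q : ℤ) := by
          simp only [Pi.sub_apply, Pi.smul_apply, smul_eq_mul, h0, sub_zero, gen_apply_self]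
          have := Int.emod_add_mul_ediv (y I) (Q : ℤ)
          rw [hk]
          have e2 : y I / (Q : ℤ) * (Q : ℤ) = (Q : ℤ) * (y I / (Q : ℤ)) := by ring
          rw [e2]
          linarith
        rw [hval]
        exact ⟨Int.emod_nonneg _ hQ'.ne', Int.emod_lt_of_pos _ hQ'⟩

end Vale.Agent.Lib.P230.Skew
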