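import Mathlib

/-!
# P230 skew route: definitions.

Target: `Theta_L(n) ≤ n (log n)^(7/6)`. The lattice in the `t` window coordinates is not cubic:
it is upper triangular with diagonal `5/2` and sheared (chosen by averaging), and the binary tree of
the layering is adapted to the height: at each level the two nearest layers are used.
-/

set_option autoImplicit false

open Finset

namespace Vale.Agent.Lib.P230.Skew

variable {t : ℕ}

/-- Tree shaped sets of displacements: `A` at level `i + 1` is the union of a shifted tree of level `i`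
and another one, the shifts are supported on the coordinates `≤ i` and differ by one in coordinate `i`. -/
inductive TreeShape (t : ℕ) : ℕ → Finset (Fin t → ℤ) → Prop
  | base : TreeShape t 0 {0}
  | step (i : ℕ) (hi : i < t) (A B : Finset (Fin t → ℤ)) (zA zB : Fin t → ℤ) :
      TreeShape t i A → TreeShape t i B →
      (∀ j : Fin t, i < j.val → zA j = 0) → (∀ j : Fin t, i < j.val → zB j = 0) →
      zB ⟨i, hi⟩ = zA ⟨i, hi⟩ + 1 →
      TreeShape t (i + 1) (A.image (· + zA) ∪ B.image (· + zB))

/-- The void after using all lattice vectors of rank `i`: `c` is void at height `u` when for every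
`z` supported below `i`, `c - Σ z j • v j` is in the void `S (u - N z)` of the fibre. -/
noncomputable def Uset {G : Type*} [AddCommGroup G] [Fintype G] (N : ℕ) (S : (Fin t → ℤ) → Finset G)
    (v : Fin t → G) (i : ℕ) (u : Fin t → ℤ) : Finset G :=
  open Classical in
  univ.filter fun c => ∀ z : Fin t → ℤ, (∀ j : Fin t, i ≤ j.val → z j = 0) →
    c - ∑ j, z j • v j ∈ S (u - (N : ℤ) • z)

/-- The generator of level `i`: `Q e_i` plus the shear below `i`. In units of `c`, true heights are `c y`. -/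
def gen (Q : ℕ) (b : Fin t → Fin t → ℤ) (i : Fin t) : Fin t → ℤ :=
  fun j => if j = i then (Q : ℤ) else if j < i then b i j else 0

/-- The lattice map. -/
def lin (Q : ℕ) (b : Fin t → Fin t → ℤ) (z : Fin t → ℤ) : Fin t → ℤ :=
  ∑ i, z i • gen Q b i

/-- The squared norm of the coordinates below `i`. -/
noncomputable def hgt (i : ℕ) (w : Fin t → ℤ) : ℝ :=
  ∑ j : Fin t, if j.val < i then ((w j : ℝ)) ^ 2 else 0

/-- The fundamental box of level `i`. -/
noncomputable def box (Q i : ℕ) : Finset (Fin t → ℤ) :=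
  Fintype.piFinset fun j : Fin t => if j.val < i then Finset.Ico (0 : ℤ) Q else {0}

/-- The tree of the two nearest layers: displacements. -/
noncomputable def Zset (Q : ℕ) (b : Fin t → Fin t → ℤ) : (i : ℕ) → (Fin t → ℤ) → Finset (Fin t → ℤ)
  | 0, _ => {0}
  | i + 1, y =>
    if hi : i < t then
      let I : Fin t := ⟨i, hi⟩
      let k : ℤ := y I / (Q : ℤ)
      let yh : Fin t → ℤ := y - k • gen Q b I
      (Zset Q b i yh).image (· + Pi.single I k) ∪
        (Zset Q b i (yh - gen Q b I)).image (· + Pi.single I (k + 1))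
    else Zset Q b i y

/-- The mass of the tree with weight `exp (-μ |h|²)`. -/
noncomputable def Mass (Q : ℕ) (b : Fin t → Fin t → ℤ) (μ : ℝ) (i : ℕ) (y : Fin t → ℤ) : ℝ :=
  ∑ z ∈ Zset Q b i y, Real.exp (-(μ * hgt i (y - lin Q b z)))

/-- The mean growth of the mass per level. -/
noncomputable def Emean (Q : ℕ) (μ : ℝ) : ℝ :=
  (1 / (Q : ℝ)) * ∑ x ∈ Finset.range Q,
    (Real.exp (-(μ * (x : ℝ) ^ 2)) + Real.exp (-(μ * ((Q : ℝ) - x) ^ 2)))

/-- The coupling term of the second moment. -/
noncomputable def Bmean (Q : ℕ) (μ : ℝ) : ℝ :=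
  (1 / (Q : ℝ)) * ∑ x ∈ Finset.range Q,
    (2 * (Real.exp (-(μ * (x : ℝ) ^ 2)) * Real.exp (-(μ * ((Q : ℝ) - x) ^ 2))))

/-- The first tilted moment, for the tail bounds. -/
noncomputable def Fmean (Q : ℕ) (μ : ℝ) : ℝ :=
  (1 / (Q : ℝ)) * ∑ x ∈ Finset.range Q,
    ((x : ℝ) ^ 2 * Real.exp (-(μ * (x : ℝ) ^ 2)) + ((Q : ℝ) - x) ^ 2 * Real.exp (-(μ * ((Q : ℝ) - x) ^ 2)))

/-- Height `y` has at least `T₀` leaves of a tree of level `i` in the ball `hgt ≤ r`. -/
def Good (Q : ℕ) (b : Fin t → Fin t → ℤ) (i : ℕ) (T₀ r : ℝ) (y : Fin t → ℤ) : Prop :=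
  ∃ A : Finset (Fin t → ℤ), TreeShape t i A ∧
    T₀ ≤ (((A.filter fun z => hgt i (y - lin Q b z) ≤ r).card : ℕ) : ℝ)

/-- Periodic functions of level `i`: depending only on the coordinates below `i` and invariant under the
generators below `i`. -/
structure Per (Q : ℕ) (b : Fin t → Fin t → ℤ) (i : ℕ) (f : (Fin t → ℤ) → ℝ) : Prop where
  dep : ∀ y y' : Fin t → ℤ, (∀ j : Fin t, j.val < i → y j = y' j) → f y = f y'
  per : ∀ j : Fin t, j.val < i → ∀ y, f (y + gen Q b j) = f y

end Vale.Agent.Lib.P230.Skew
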