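import Vale.Agent.Lib.P230.Skew.Tree

/-!
# P230 skew route: Paley-Zygmund and Markov for the mass of the tree.

`good_density`: a positive proportion `1/16` of the heights of the box have, in the tree `Zset`, many leaves
in the ball `hgt ≤ R₂`.
-/

set_option autoImplicit false

open Finset

namespace Vale.Agent.Lib.P230.Skew

variable {t : ℕ}

namespace DensityAux

lemma Emean_pos {Q : ℕ} (hQ : 0 < Q) (ν : ℝ) : 0 < Emean Q ν := by
  unfold Emean
  have hQ' : (0 : ℝ) < Q := by exact_mod_cast hQ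
  apply mul_pos (by positivity)
  apply Finset.sum_pos
  · intro x _
    positivity
  · exact ⟨0, mem_range.2 hQ⟩

lemma card_box {Q i : ℕ} (hi : i ≤ t) : ((box Q i : Finset (Fin t → ℤ)).card : ℝ) = (Q : ℝ) ^ i := by
  unfold box
  rw [Fintype.card_piFinset]
  have h : ∀ j : Fin t, (if j.val < i then Ico (0 : ℤ) Q else {0}).card = if j.val < i then Q else 1 := by
    intro j
    split_ifs <;> simp
  simp_rw [h]
  rw [Fin.prod_univ_eq_prod_range (fun j => if j < i then Q else 1) t, ← Finset.prod_filter]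
  have h2 : (range t).filter (· < i) = range i := by
    ext x
    simp
    omega
  rw [h2]
  simp

lemma density_abstract {α : Type*} (S : Finset α) (n : ℝ) (hn : (S.card : ℝ) = n) (hn0 : 0 < n)
    (M M₁ M₂ : α → ℝ) (hM : ∀ y, 0 ≤ M y) (hM₁ : ∀ y, 0 ≤ M₁ y) (hM₂ : ∀ y, 0 ≤ M₂ y)
    (E E₁ E₂ : ℝ) (hE : 0 < E) (hE₁ : 0 < E₁) (hE₂ : 0 < E₂)
    (h1 : ∑ y ∈ S, M y = n * E) (h2 : ∑ y ∈ S, M₁ y = n * E₁) (h3 : ∑ y ∈ S, M₂ y = n * E₂)
    (hW : ∑ y ∈ S, M y ^ 2 ≤ 2 * n * E ^ 2) :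
    n / 16 ≤ ((S.filter fun y => E / 2 ≤ M y ∧ M₁ y ≤ 32 * E₁ ∧ M₂ y ≤ 32 * E₂).card : ℝ) := by
  classical
  set G := S.filter fun y => E / 2 ≤ M y with hGdef
  set B₁ := S.filter fun y => 32 * E₁ < M₁ y with hB₁
  set B₂ := S.filter fun y => 32 * E₂ < M₂ y with hB₂
  set T := S.filter fun y => E / 2 ≤ M y ∧ M₁ y ≤ 32 * E₁ ∧ M₂ y ≤ 32 * E₂ with hT
  have hG1 : n * E / 2 ≤ ∑ y ∈ G, M y := by
    have hsplit : ∑ y ∈ G, M y + ∑ y ∈ S.filter (fun y => ¬ E / 2 ≤ M y), M y = ∑ y ∈ S, M y :=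
      Finset.sum_filter_add_sum_filter_not S _ M
    have hbad : ∑ y ∈ S.filter (fun y => ¬ E / 2 ≤ M y), M y ≤ n * (E / 2) := by
      calc ∑ y ∈ S.filter (fun y => ¬ E / 2 ≤ M y), M y
          ≤ ∑ _y ∈ S.filter (fun y => ¬ E / 2 ≤ M y), E / 2 :=
            Finset.sum_le_sum fun y hy => (not_le.1 (mem_filter.1 hy).2).le
        _ = ((S.filter (fun y => ¬ E / 2 ≤ M y)).card : ℝ) * (E / 2) := by
            rw [Finset.sum_const, nsmul_eq_mul]
        _ ≤ n * (E / 2) := by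
            apply mul_le_mul_of_nonneg_right _ (by positivity)
            rw [← hn]
            exact_mod_cast Finset.card_filter_le _ _
    rw [h1] at hsplit
    linarith
  have hCS := sq_sum_le_card_mul_sum_sq (s := G) (f := M)
  have hG2 : ∑ y ∈ G, M y ^ 2 ≤ 2 * n * E ^ 2 :=
    le_trans (Finset.sum_le_sum_of_subset_of_nonneg (filter_subset _ _) (fun _ _ _ => sq_nonneg _)) hW
  have hG : n / 8 ≤ (G.card : ℝ) := by
    have h4 : (n * E / 2) ^ 2 ≤ (∑ y ∈ G, M y) ^ 2 := pow_le_pow_left₀ (by positivity) hG1 2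
    have h5 : (n * E / 2) ^ 2 ≤ (G.card : ℝ) * (2 * n * E ^ 2) :=
      h4.trans (hCS.trans (mul_le_mul_of_nonneg_left hG2 (Nat.cast_nonneg _)))
    have h6 : 0 < 2 * n * E ^ 2 := by positivity
    have h7 : (n / 8) * (2 * n * E ^ 2) ≤ (G.card : ℝ) * (2 * n * E ^ 2) := by
      calc (n / 8) * (2 * n * E ^ 2) = (n * E / 2) ^ 2 := by ring
        _ ≤ _ := h5
    exact le_of_mul_le_mul_right h7 h6
  have hmarkov : ∀ (F : α → ℝ) (e : ℝ), (∀ y, 0 ≤ F y) → 0 < e → ∑ y ∈ S, F y = n * e →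
      ((S.filter fun y => 32 * e < F y).card : ℝ) ≤ n / 32 := by
    intro F e hF he hs
    have h8 : ((S.filter fun y => 32 * e < F y).card : ℝ) * (32 * e) ≤ n * e := by
      rw [← hs]
      calc ((S.filter fun y => 32 * e < F y).card : ℝ) * (32 * e)
          = ∑ _y ∈ S.filter (fun y => 32 * e < F y), 32 * e := by
            rw [Finset.sum_const, nsmul_eq_mul]
        _ ≤ ∑ y ∈ S.filter (fun y => 32 * e < F y), F y :=
            Finset.sum_le_sum fun y hy => (mem_filter.1 hy).2.le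
        _ ≤ ∑ y ∈ S, F y :=
            Finset.sum_le_sum_of_subset_of_nonneg (filter_subset _ _) (fun y _ _ => hF y)
    have h9 : ((S.filter fun y => 32 * e < F y).card : ℝ) * (32 * e) ≤ (n / 32) * (32 * e) := by
      calc _ ≤ n * e := h8
        _ = _ := by field_simp
    exact le_of_mul_le_mul_right h9 (by positivity)
  have hsub : G ⊆ T ∪ (B₁ ∪ B₂) := by
    intro y hy
    rw [hGdef, mem_filter] at hy
    by_cases h1' : M₁ y ≤ 32 * E₁
    · by_cases h2' : M₂ y ≤ 32 * E₂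
      · exact mem_union_left _ (mem_filter.2 ⟨hy.1, hy.2, h1', h2'⟩)
      · exact mem_union_right _ (mem_union_right _ (mem_filter.2 ⟨hy.1, not_le.1 h2'⟩))
    · exact mem_union_right _ (mem_union_left _ (mem_filter.2 ⟨hy.1, not_le.1 h1'⟩))
  have hcard : (G.card : ℝ) ≤ T.card + (B₁.card + B₂.card) := by
    have h10 := (card_le_card hsub).trans ((card_union_le _ _).trans
      (Nat.add_le_add_left (card_union_le _ _) _))
    exact_mod_cast h10
  have h11 := hmarkov M₁ E₁ hM₁ hE₁ h2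
  have h12 := hmarkov M₂ E₂ hM₂ hE₂ h3
  rw [← hB₁] at h11
  rw [← hB₂] at h12
  linarith

lemma Mass_nonneg (Q : ℕ) (b : Fin t → Fin t → ℤ) (μ : ℝ) (i : ℕ) (y : Fin t → ℤ) :
    0 ≤ Mass Q b μ i y := by
  unfold Mass
  exact Finset.sum_nonneg fun z _ => (Real.exp_pos _).le

lemma leaves_of_mass (Q : ℕ) (b : Fin t → Fin t → ℤ) (μ θ R₁ R₂ : ℝ) (hθ : 0 < θ) (hμ : 0 ≤ μ) (i : ℕ)
    (y : Fin t → ℤ) (E E₁ E₂ : ℝ)
    (h0 : E / 2 ≤ Mass Q b μ i y) (h1 : Mass Q b (μ - θ) i y ≤ 32 * E₁)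
    (h2 : Mass Q b (μ + θ) i y ≤ 32 * E₂)
    (hH : 256 * Real.exp (-(θ * R₂)) * E₁ ≤ E) (hL : 256 * Real.exp (θ * R₁) * E₂ ≤ E) :
    (1 / 4) * E * Real.exp (μ * R₁) ≤
      (((Zset Q b i y).filter fun z => hgt i (y - lin Q b z) ≤ R₂).card : ℝ) := by
  classical
  set A := Zset Q b i y with hA
  set X : ℝ := ((A.filter fun z => hgt i (y - lin Q b z) ≤ R₂).card : ℝ) with hX
  have hpt : ∀ z ∈ A, Real.exp (-(μ * hgt i (y - lin Q b z))) ≤
      Real.exp (-(θ * R₂)) * Real.exp (-((μ - θ) * hgt i (y - lin Q b z))) +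
      Real.exp (θ * R₁) * Real.exp (-((μ + θ) * hgt i (y - lin Q b z))) +
      (if hgt i (y - lin Q b z) ≤ R₂ then Real.exp (-(μ * R₁)) else 0) := by
    intro z _
    set h := hgt i (y - lin Q b z) with hh
    have p1 : 0 < Real.exp (-(θ * R₂)) * Real.exp (-((μ - θ) * h)) := by positivity
    have p2 : 0 < Real.exp (θ * R₁) * Real.exp (-((μ + θ) * h)) := by positivity
    by_cases c1 : h ≤ R₂
    · rw [if_pos c1]
      by_cases c2 : h < R₁
      · have : Real.exp (-(μ * h)) ≤ Real.exp (θ * R₁) * Real.exp (-((μ + θ) * h)) := by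
          rw [← Real.exp_add]
          apply Real.exp_le_exp.2
          nlinarith
        have p3 := Real.exp_pos (-(μ * R₁))
        linarith
      · have : Real.exp (-(μ * h)) ≤ Real.exp (-(μ * R₁)) := by
          apply Real.exp_le_exp.2
          have c3 : R₁ ≤ h := not_lt.1 c2
          nlinarith
        linarith
    · rw [if_neg c1]
      have c3 : R₂ < h := not_le.1 c1
      have : Real.exp (-(μ * h)) ≤ Real.exp (-(θ * R₂)) * Real.exp (-((μ - θ) * h)) := by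
        rw [← Real.exp_add]
        apply Real.exp_le_exp.2
        nlinarith
      linarith
  have hsum : Mass Q b μ i y ≤ Real.exp (-(θ * R₂)) * Mass Q b (μ - θ) i y +
      Real.exp (θ * R₁) * Mass Q b (μ + θ) i y + X * Real.exp (-(μ * R₁)) := by
    have h3 := Finset.sum_le_sum hpt
    rw [Finset.sum_add_distrib, Finset.sum_add_distrib, ← Finset.mul_sum, ← Finset.mul_sum,
      ← Finset.sum_filter, Finset.sum_const, nsmul_eq_mul] at h3
    exact h3
  have e1 : Real.exp (-(θ * R₂)) * Mass Q b (μ - θ) i y ≤ E / 8 := by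
    have := mul_le_mul_of_nonneg_left h1 (Real.exp_pos (-(θ * R₂))).le
    nlinarith
  have e2 : Real.exp (θ * R₁) * Mass Q b (μ + θ) i y ≤ E / 8 := by
    have := mul_le_mul_of_nonneg_left h2 (Real.exp_pos (θ * R₁)).le
    nlinarith
  have e3 : E / 4 ≤ X * Real.exp (-(μ * R₁)) := by linarith
  have e4 := mul_le_mul_of_nonneg_right e3 (Real.exp_pos (μ * R₁)).le
  have e5 : X * Real.exp (-(μ * R₁)) * Real.exp (μ * R₁) = X := by
    rw [mul_assoc, ← Real.exp_add]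
    simp
  rw [e5] at e4
  calc (1 / 4) * E * Real.exp (μ * R₁) = E / 4 * Real.exp (μ * R₁) := by ring
    _ ≤ X := e4

end DensityAux

open DensityAux

/-- Paley-Zygmund and Markov: density at least `1/16` of good heights. -/
theorem good_density {Q : ℕ} (hQ : 0 < Q) (b : Fin t → Fin t → ℤ) (μ θ R₁ R₂ : ℝ) (hθ : 0 < θ) (hμ : 0 ≤ μ)
    (i : ℕ) (hi : i ≤ t) (hE : 0 < Emean Q μ)
    (hW : ∑ y ∈ box Q i, Mass Q b μ i y ^ 2 ≤ 2 * (Q : ℝ) ^ i * Emean Q μ ^ (2 * i))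
    (hH : 256 * Real.exp (-(θ * R₂)) * Emean Q (μ - θ) ^ i ≤ Emean Q μ ^ i)
    (hL : 256 * Real.exp (θ * R₁) * Emean Q (μ + θ) ^ i ≤ Emean Q μ ^ i) :
    open Classical in
    (Q : ℝ) ^ i / 16 ≤ (((box Q i).filter fun y =>
      Good Q b i ((1 / 4) * Emean Q μ ^ i * Real.exp (μ * R₁)) R₂ y).card : ℝ) := by
  classical
  have hQ' : (0 : ℝ) < Q := by exact_mod_cast hQ
  have hpow : ∀ ν, ∑ y ∈ box Q i, Mass Q b ν i y = (Q : ℝ) ^ i * Emean Q ν ^ i := fun ν => by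
    rw [Mass_mean hQ b ν i hi, mul_pow]
  have hdens := density_abstract (box Q i) ((Q : ℝ) ^ i) (card_box hi) (by positivity)
    (Mass Q b μ i) (Mass Q b (μ - θ) i) (Mass Q b (μ + θ) i)
    (Mass_nonneg Q b μ i) (Mass_nonneg Q b (μ - θ) i) (Mass_nonneg Q b (μ + θ) i)
    (Emean Q μ ^ i) (Emean Q (μ - θ) ^ i) (Emean Q (μ + θ) ^ i)
    (pow_pos hE i) (pow_pos (Emean_pos hQ _) i) (pow_pos (Emean_pos hQ _) i)
    (hpow μ) (hpow (μ - θ)) (hpow (μ + θ))
    (by rw [← pow_mul, mul_comm i 2]; exact hW)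
  refine hdens.trans ?_
  apply Nat.cast_le.2
  apply Finset.card_le_card
  intro y hy
  rw [mem_filter] at hy ⊢
  refine ⟨hy.1, Zset Q b i y, Zset_tree Q b i hi y, ?_⟩
  exact leaves_of_mass Q b μ θ R₁ R₂ hθ hμ i y _ _ _ hy.2.1 hy.2.2.1 hy.2.2.2 hH hL

end Vale.Agent.Lib.P230.Skew
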