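import Vale.Agent.Lib.P230.Skew.Defs

/-!
# P230 skew route, module S7: the numerics.
Verified fixed point recursion: the numbers `exp (-μ x²) = r ^ (x²)` for `x ≤ 500` are bounded by a
recursion in natural numbers with scale `2^80`, evaluated by the kernel.
-/

set_option autoImplicit false

open Finset

namespace Vale.Agent.Lib.P230.Skew
namespace SkewNum

/-- The scale, `2^80`. -/
def Sc : ℕ := 1208925819614629174706176

lemma Sc_pos : (0 : ℝ) < (Sc : ℝ) := by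
  have : 0 < Sc := by decide +kernel
  exact_mod_cast this

/-- Lower recursion: `(a, q, s)` stand for `r^(n^2)`, `r^(2n+1)`, the sum of `r^(x^2)`, `x < n`. -/
def loSeq (ρ : ℕ) : ℕ → ℕ × ℕ × ℕ
  | 0 => (Sc, ρ, 0)
  | n + 1 =>
    match loSeq ρ n with
    | (a, q, s) => (a * q / Sc, q * (ρ * ρ / Sc) / Sc, s + a)

/-- Upper recursion. -/
def hiSeq (ρ : ℕ) : ℕ → ℕ × ℕ × ℕ
  | 0 => (Sc, ρ, 0)
  | n + 1 =>
    match hiSeq ρ n with
    | (a, q, s) => (a * q / Sc + 1, q * (ρ * ρ / Sc + 1) / Sc + 1, s + a)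

lemma mul_div_le (A B : ℕ) :
    (((A * B / Sc : ℕ) : ℝ)) / Sc ≤ ((A : ℝ) / Sc) * ((B : ℝ) / Sc) := by
  have h := Sc_pos
  have h1 : (((A * B / Sc : ℕ) : ℝ)) ≤ ((A * B : ℕ) : ℝ) / (Sc : ℝ) := Nat.cast_div_le
  push_cast at h1
  calc (((A * B / Sc : ℕ) : ℝ)) / Sc ≤ ((A : ℝ) * B / Sc) / Sc := by
        exact div_le_div_of_nonneg_right h1 h.le
    _ = _ := by field_simp

lemma le_mul_div (A B : ℕ) :
    ((A : ℝ) / Sc) * ((B : ℝ) / Sc) ≤ (((A * B / Sc + 1 : ℕ) : ℝ)) / Sc := by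
  have h := Sc_pos
  have hn : 0 < Sc := by decide +kernel
  have h1 : A * B < (A * B / Sc + 1) * Sc := by
    have := Nat.lt_mul_div_succ (A * B) hn
    calc A * B < Sc * (A * B / Sc + 1) := this
      _ = _ := Nat.mul_comm _ _
  have h2 : ((A : ℝ) * B) ≤ ((A * B / Sc + 1 : ℕ) : ℝ) * Sc := by exact_mod_cast h1.le
  rw [div_mul_div_comm, div_le_div_iff₀ (by positivity) h]
  nlinarith [mul_le_mul_of_nonneg_right h2 h.le]

lemma lo_spec {r : ℝ} (hr : 0 < r) {ρ : ℕ} (hρ : (ρ : ℝ) / Sc ≤ r) (n : ℕ) :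
    (((loSeq ρ n).1 : ℕ) : ℝ) / Sc ≤ r ^ (n ^ 2) ∧
    (((loSeq ρ n).2.1 : ℕ) : ℝ) / Sc ≤ r ^ (2 * n + 1) ∧
    (((loSeq ρ n).2.2 : ℕ) : ℝ) / Sc ≤ ∑ x ∈ range n, r ^ (x ^ 2) := by
  have hS := Sc_pos
  have hρ2 : (((ρ * ρ / Sc : ℕ) : ℝ)) / Sc ≤ r ^ 2 := by
    refine (mul_div_le ρ ρ).trans ?_
    have h0 : (0 : ℝ) ≤ (ρ : ℝ) / Sc := by positivity
    nlinarith
  induction n with
  | zero =>
    simp only [loSeq]
    refine ⟨?_, ?_, ?_⟩
    · simp [hS.ne']
    · simpa using hρ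
    · simp
  | succ n ih =>
    obtain ⟨h1, h2, h3⟩ := ih
    rcases hst : loSeq ρ n with ⟨a, q, s⟩
    rw [hst] at h1 h2 h3
    simp only [loSeq, hst]
    simp only at h1 h2 h3
    have ha : (0 : ℝ) ≤ (a : ℝ) / Sc := by positivity
    have hq : (0 : ℝ) ≤ (q : ℝ) / Sc := by positivity
    have hp1 : (0 : ℝ) ≤ r ^ (n ^ 2) := by positivity
    have hp2 : (0 : ℝ) ≤ r ^ (2 * n + 1) := by positivity
    refine ⟨?_, ?_, ?_⟩
    · refine (mul_div_le a q).trans ?_
      have : r ^ ((n + 1) ^ 2) = r ^ (n ^ 2) * r ^ (2 * n + 1) := by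
        rw [← pow_add]; congr 1; ring
      rw [this]
      exact mul_le_mul h1 h2 hq hp1
    · refine (mul_div_le q (ρ * ρ / Sc)).trans ?_
      have : r ^ (2 * (n + 1) + 1) = r ^ (2 * n + 1) * r ^ 2 := by
        rw [← pow_add]; congr 1
      rw [this]
      exact mul_le_mul h2 hρ2 (by positivity) hp2
    · rw [sum_range_succ]
      push_cast
      rw [add_div]
      exact add_le_add h3 h1

lemma hi_spec {r : ℝ} (hr : 0 < r) {ρ : ℕ} (hρ : r ≤ (ρ : ℝ) / Sc) (n : ℕ) :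
    r ^ (n ^ 2) ≤ (((hiSeq ρ n).1 : ℕ) : ℝ) / Sc ∧
    r ^ (2 * n + 1) ≤ (((hiSeq ρ n).2.1 : ℕ) : ℝ) / Sc ∧
    ∑ x ∈ range n, r ^ (x ^ 2) ≤ (((hiSeq ρ n).2.2 : ℕ) : ℝ) / Sc := by
  have hS := Sc_pos
  have hρ2 : r ^ 2 ≤ (((ρ * ρ / Sc + 1 : ℕ) : ℝ)) / Sc := by
    refine le_trans ?_ (le_mul_div ρ ρ)
    nlinarith
  induction n with
  | zero =>
    simp only [hiSeq]
    refine ⟨?_, ?_, ?_⟩
    · simp [hS.ne']
    · simpa using hρ
    · simp
  | succ n ih =>
    obtain ⟨h1, h2, h3⟩ := ih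
    rcases hst : hiSeq ρ n with ⟨a, q, s⟩
    rw [hst] at h1 h2 h3
    simp only [hiSeq, hst]
    simp only at h1 h2 h3
    have hp1 : (0 : ℝ) ≤ r ^ (n ^ 2) := by positivity
    have hp2 : (0 : ℝ) ≤ r ^ (2 * n + 1) := by positivity
    refine ⟨?_, ?_, ?_⟩
    · refine le_trans ?_ (le_mul_div a q)
      have : r ^ ((n + 1) ^ 2) = r ^ (n ^ 2) * r ^ (2 * n + 1) := by
        rw [← pow_add]; congr 1; ring
      rw [this]
      exact mul_le_mul h1 h2 hp2 (by positivity)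
    · refine le_trans ?_ (le_mul_div q (ρ * ρ / Sc + 1))
      have : r ^ (2 * (n + 1) + 1) = r ^ (2 * n + 1) * r ^ 2 := by
        rw [← pow_add]; congr 1
      rw [this]
      exact mul_le_mul h2 hρ2 (by positivity) (by positivity)
    · rw [sum_range_succ]
      push_cast
      rw [add_div]
      exact add_le_add h3 h1

lemma exp_sq (μ : ℝ) (x : ℕ) : Real.exp (-(μ * (x : ℝ) ^ 2)) = Real.exp (-μ) ^ (x ^ 2) := by
  rw [← Real.exp_nat_mul]
  congr 1
  push_cast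
  ring

/-- Closed form of the mean. -/
lemma Emean_eq (μ : ℝ) :
    Emean 500 μ = (1 / 500) * (2 * ∑ x ∈ range 500, Real.exp (-μ) ^ (x ^ 2)
      + Real.exp (-μ) ^ (500 ^ 2) - 1) := by
  unfold Emean
  rw [sum_add_distrib]
  have h1 : ∑ x ∈ range 500, Real.exp (-(μ * (((500 : ℕ) : ℝ) - (x : ℝ)) ^ 2))
      = ∑ x ∈ range 500, Real.exp (-μ) ^ ((x + 1) ^ 2) := by
    rw [← sum_range_reflect]
    refine sum_congr rfl fun x hx => ?_
    have hx' : x < 500 := mem_range.mp hx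
    have hc : (((500 : ℕ) : ℝ) - ((500 - 1 - x : ℕ) : ℝ)) = ((x + 1 : ℕ) : ℝ) := by
      have : 500 - 1 - x + (x + 1) = 500 := by omega
      have h2 : ((500 - 1 - x + (x + 1) : ℕ) : ℝ) = ((500 : ℕ) : ℝ) := by rw [this]
      rw [← h2]
      push_cast
      ring
    rw [hc, exp_sq]
  have h2 : ∑ x ∈ range 500, Real.exp (-μ) ^ ((x + 1) ^ 2)
      = ∑ x ∈ range 500, Real.exp (-μ) ^ (x ^ 2) + Real.exp (-μ) ^ (500 ^ 2) - 1 := by
    have h3 := sum_range_succ (fun x => Real.exp (-μ) ^ (x ^ 2)) 500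
    have h4 := sum_range_succ' (fun x => Real.exp (-μ) ^ (x ^ 2)) 500
    rw [h3] at h4
    simp only [ne_eq, OfNat.ofNat_ne_zero, not_false_eq_true, zero_pow, pow_zero] at h4
    linarith
  rw [h1, h2]
  have h3 : ∑ x ∈ range 500, Real.exp (-(μ * (x : ℝ) ^ 2))
      = ∑ x ∈ range 500, Real.exp (-μ) ^ (x ^ 2) :=
    sum_congr rfl fun x _ => exp_sq μ x
  rw [h3]
  push_cast
  ring

/-- Lower bound of the mean by the recursion. -/
lemma Emean_lower {μ : ℝ} {ρ : ℕ} (hρ : (ρ : ℝ) / Sc ≤ Real.exp (-μ)) (L D : ℕ) (hD : 0 < D)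
    (hchk : L * 500 * Sc + D * Sc ≤ D * (2 * (loSeq ρ 500).2.2 + (loSeq ρ 500).1)) :
    (L : ℝ) / D ≤ Emean 500 μ := by
  have hS := Sc_pos
  have hDr : (0 : ℝ) < D := by exact_mod_cast hD
  have h1 := (lo_spec (Real.exp_pos (-μ)) hρ 500).2.2
  have h2 := (lo_spec (Real.exp_pos (-μ)) hρ 500).1
  have hc : (L : ℝ) * 500 * Sc + D * Sc ≤ D * (2 * (((loSeq ρ 500).2.2 : ℕ) : ℝ)
      + (((loSeq ρ 500).1 : ℕ) : ℝ)) := by exact_mod_cast hchk
  set s : ℝ := (((loSeq ρ 500).2.2 : ℕ) : ℝ) with hs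
  set a : ℝ := (((loSeq ρ 500).1 : ℕ) : ℝ) with ha
  have key : (L : ℝ) / D * 500 + 1 ≤ 2 * (s / Sc) + a / Sc := by
    have e1 : (L : ℝ) / D * 500 + 1 = ((L : ℝ) * 500 * Sc + D * Sc) / (D * Sc) := by
      field_simp
    have e2 : 2 * (s / Sc) + a / Sc = (D * (2 * s + a)) / (D * Sc) := by
      field_simp
    rw [e1, e2]
    exact div_le_div_of_nonneg_right hc (mul_pos hDr hS).le
  rw [Emean_eq]
  linarith

/-- Upper bound of the mean by the recursion. -/
lemma Emean_upper {μ : ℝ} {ρ : ℕ} (hρ : Real.exp (-μ) ≤ (ρ : ℝ) / Sc) (L D : ℕ) (hD : 0 < D)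
    (hchk : D * (2 * (hiSeq ρ 500).2.2 + (hiSeq ρ 500).1) ≤ L * 500 * Sc + D * Sc) :
    Emean 500 μ ≤ (L : ℝ) / D := by
  have hS := Sc_pos
  have hDr : (0 : ℝ) < D := by exact_mod_cast hD
  have h1 := (hi_spec (Real.exp_pos (-μ)) hρ 500).2.2
  have h2 := (hi_spec (Real.exp_pos (-μ)) hρ 500).1
  have hc : (D : ℝ) * (2 * (((hiSeq ρ 500).2.2 : ℕ) : ℝ)
      + (((hiSeq ρ 500).1 : ℕ) : ℝ)) ≤ (L : ℝ) * 500 * Sc + D * Sc := by exact_mod_cast hchk
  set s : ℝ := (((hiSeq ρ 500).2.2 : ℕ) : ℝ) with hs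
  set a : ℝ := (((hiSeq ρ 500).1 : ℕ) : ℝ) with ha
  have key : 2 * (s / Sc) + a / Sc ≤ (L : ℝ) / D * 500 + 1 := by
    have e1 : (L : ℝ) / D * 500 + 1 = ((L : ℝ) * 500 * Sc + D * Sc) / (D * Sc) := by
      field_simp
    have e2 : 2 * (s / Sc) + a / Sc = (D * (2 * s + a)) / (D * Sc) := by
      field_simp
    rw [e1, e2]
    exact div_le_div_of_nonneg_right hc (mul_pos hDr hS).le
  rw [Emean_eq]
  linarith

lemma exp_neg_bounds {m : ℝ} (h0 : 0 ≤ m) (h1 : m ≤ 1) :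
    1 - m + m ^ 2 / 2 - m ^ 3 / 6 - m ^ 4 * (5 / 96) ≤ Real.exp (-m) ∧
      Real.exp (-m) ≤ 1 - m + m ^ 2 / 2 - m ^ 3 / 6 + m ^ 4 * (5 / 96) := by
  have habs : |(-m)| ≤ 1 := by rw [abs_neg, abs_of_nonneg h0]; exact h1
  have h := Real.exp_bound habs (n := 4) (by norm_num)
  rw [abs_neg, abs_of_nonneg h0] at h
  have hs : ∑ k ∈ range 4, (-m) ^ k / (k.factorial : ℝ) = 1 - m + m ^ 2 / 2 - m ^ 3 / 6 := by
    simp [sum_range_succ, Nat.factorial]
    ring
  rw [hs] at h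
  have h5 : m ^ 4 * ((Nat.succ 4 : ℕ) / ((Nat.factorial 4 : ℕ) * (4 : ℕ)) : ℝ) = m ^ 4 * (5 / 96) := by
    norm_num [Nat.factorial]
  rw [h5] at h
  rw [abs_le] at h
  constructor <;> linarith [h.1, h.2]

/-! The five kernel checks. -/

lemma chk1 : 99933123943 * 500 * Sc + 100000000000 * Sc ≤
    100000000000 * (2 * (loSeq 1208911010364045740512531 500).2.2
      + (loSeq 1208911010364045740512531 500).1) := by
  decide +kernel

lemma chk2 : 100000000000 * (2 * (hiSeq 1208896201294874514823553 500).2.2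
      + (hiSeq 1208896201294874514823553 500).1) ≤ 71584628082 * 500 * Sc + 100000000000 * Sc := by
  decide +kernel

lemma chk3 : 100000000000 * (2 * (hiSeq 1208911040586821377401203 500).2.2
      + (hiSeq 1208911040586821377401203 500).1) ≤ 100025663204 * 500 * Sc + 100000000000 * Sc := by
  decide +kernel

lemma chk4 : 100000000000 * (2 * (hiSeq 1208910980141270859198915 500).2.2
      + (hiSeq 1208910980141270859198915 500).1) ≤ 99840807970 * 500 * Sc + 100000000000 * Sc := by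
  decide +kernel

lemma E1_lower : (99933123943 / 100000000000 : ℝ) ≤ Emean 500 (49 / 4000000) := by
  have hρ : (((1208911010364045740512531 : ℕ) : ℝ)) / (Sc : ℝ) ≤ Real.exp (-(49 / 4000000)) := by
    refine le_trans ?_ (exp_neg_bounds (m := 49 / 4000000) (by norm_num) (by norm_num)).1
    norm_num [Sc]
  have h := Emean_lower hρ 99933123943 100000000000 (by norm_num) chk1
  norm_num at h ⊢
  exact h

lemma E2_upper : Emean 500 (49 / 2000000) ≤ (71584628082 / 100000000000 : ℝ) := by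
  have hρ : Real.exp (-(49 / 2000000)) ≤ (((1208896201294874514823553 : ℕ) : ℝ)) / (Sc : ℝ) := by
    refine le_trans (exp_neg_bounds (m := 49 / 2000000) (by norm_num) (by norm_num)).2 ?_
    norm_num [Sc]
  have h := Emean_upper hρ 71584628082 100000000000 (by norm_num) chk2
  norm_num at h ⊢
  exact h

lemma E3_upper : Emean 500 (489 / 40000000) ≤ (100025663204 / 100000000000 : ℝ) := by
  have hρ : Real.exp (-(489 / 40000000)) ≤ (((1208911040586821377401203 : ℕ) : ℝ)) / (Sc : ℝ) := by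
    refine le_trans (exp_neg_bounds (m := 489 / 40000000) (by norm_num) (by norm_num)).2 ?_
    norm_num [Sc]
  have h := Emean_upper hρ 100025663204 100000000000 (by norm_num) chk3
  norm_num at h ⊢
  exact h

lemma E4_upper : Emean 500 (491 / 40000000) ≤ (99840807970 / 100000000000 : ℝ) := by
  have hρ : Real.exp (-(491 / 40000000)) ≤ (((1208910980141270859198915 : ℕ) : ℝ)) / (Sc : ℝ) := by
    refine le_trans (exp_neg_bounds (m := 491 / 40000000) (by norm_num) (by norm_num)).2 ?_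
    norm_num [Sc]
  have h := Emean_upper hρ 99840807970 100000000000 (by norm_num) chk4
  norm_num at h ⊢
  exact h

lemma exp_neg_crude : Real.exp (-(49 / 32 : ℝ)) ≤ 22 / 100 := by
  have h := Real.sum_le_exp_of_nonneg (x := (49 / 32 : ℝ)) (by norm_num) 8
  have h' : (1 / (22 / 100) : ℝ) ≤ Real.exp (49 / 32) := by
    refine le_trans ?_ h
    simp only [sum_range_succ, sum_range_zero, Nat.factorial]
    norm_num
  rw [Real.exp_neg]
  have hp : (0 : ℝ) < 22 / 100 := by norm_num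
  calc (Real.exp (49 / 32))⁻¹ ≤ (1 / (22 / 100) : ℝ)⁻¹ :=
        inv_anti₀ (by norm_num) h'
    _ = 22 / 100 := by norm_num

lemma B_upper : Bmean 500 (49 / 4000000) ≤ (44 / 100 : ℝ) := by
  unfold Bmean
  have hterm : ∀ x ∈ range 500, 2 * (Real.exp (-((49 / 4000000 : ℝ) * (x : ℝ) ^ 2)) *
      Real.exp (-((49 / 4000000 : ℝ) * (((500 : ℕ) : ℝ) - x) ^ 2))) ≤ 44 / 100 := by
    intro x _
    rw [← Real.exp_add]
    have h1 : -((49 / 4000000 : ℝ) * (x : ℝ) ^ 2) + -((49 / 4000000 : ℝ) * (((500 : ℕ) : ℝ) - x) ^ 2)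
        ≤ -(49 / 32 : ℝ) := by
      push_cast
      nlinarith [sq_nonneg ((x : ℝ) - 250)]
    have h2 := Real.exp_le_exp.mpr h1
    linarith [exp_neg_crude]
  have hsum := sum_le_card_nsmul (range 500) _ (44 / 100 : ℝ) hterm
  simp only [card_range, nsmul_eq_mul] at hsum
  push_cast at hsum ⊢
  have h3 : (1 / (500 : ℝ)) * ∑ x ∈ range 500, 2 * (Real.exp (-((49 / 4000000 : ℝ) * (x : ℝ) ^ 2)) *
      Real.exp (-((49 / 4000000 : ℝ) * ((500 : ℝ) - x) ^ 2))) ≤ (1 / (500 : ℝ)) * (500 * (44 / 100)) :=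
    mul_le_mul_of_nonneg_left hsum (by norm_num)
  refine h3.trans ?_
  norm_num

end SkewNum

open SkewNum in
/-- MODULE S7. -/
theorem skew_numerics :
    let Q : ℕ := 500
    let μ : ℝ := 49 / 4000000
    let θ : ℝ := 1 / 40000000
    Emean Q (2 * μ) ≤ (3 / 4) * Emean Q μ ^ 2 ∧ Bmean Q μ ≤ (1 / 2) * Emean Q μ ^ 2 ∧
    Real.exp (-((1 / 1000) * (955 / 1000))) * Emean Q (μ - θ) < Emean Q μ ∧
    Real.exp ((1 / 1000) * (91 / 100)) * Emean Q (μ + θ) < Emean Q μ ∧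
    (155 / 100 : ℝ) < Emean Q μ * Real.exp ((49 / 100) * (91 / 100)) := by
  intro Q μ θ
  have e2 : (2 * μ : ℝ) = 49 / 2000000 := by simp only [μ]; norm_num
  have e3 : (μ - θ : ℝ) = 489 / 40000000 := by simp only [μ, θ]; norm_num
  have e4 : (μ + θ : ℝ) = 491 / 40000000 := by simp only [μ, θ]; norm_num
  have hE : (99933123943 / 100000000000 : ℝ) ≤ Emean Q μ := E1_lower
  have hE0 : (0 : ℝ) < Emean Q μ := lt_of_lt_of_le (by norm_num) hE
  have hsq : (99933123943 / 100000000000 : ℝ) ^ 2 ≤ Emean Q μ ^ 2 :=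
    pow_le_pow_left₀ (by norm_num) hE 2
  have hU2 : Emean Q (2 * μ) ≤ (71584628082 / 100000000000 : ℝ) := by rw [e2]; exact E2_upper
  have hU3 : Emean Q (μ - θ) ≤ (100025663204 / 100000000000 : ℝ) := by rw [e3]; exact E3_upper
  have hU4 : Emean Q (μ + θ) ≤ (99840807970 / 100000000000 : ℝ) := by rw [e4]; exact E4_upper
  have hB : Bmean Q μ ≤ (44 / 100 : ℝ) := B_upper
  have hnum : ((99933123943 / 100000000000 : ℝ) ^ 2) = 99933123943 ^ 2 / 100000000000 ^ 2 := by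
    norm_num
  refine ⟨?_, ?_, ?_, ?_, ?_⟩
  · have : (71584628082 / 100000000000 : ℝ) ≤ (3 / 4) * (99933123943 / 100000000000 : ℝ) ^ 2 := by
      norm_num
    linarith
  · have : (44 / 100 : ℝ) ≤ (1 / 2) * (99933123943 / 100000000000 : ℝ) ^ 2 := by norm_num
    linarith
  · have hx : ((1 : ℝ) / 1000) * (955 / 1000) = 955 / 1000000 := by norm_num
    rw [hx]
    have hb := (exp_neg_bounds (m := 955 / 1000000) (by norm_num) (by norm_num)).2
    have hE3nn : 0 ≤ Emean Q (μ - θ) := by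
      unfold Emean
      positivity
    have h1 : Real.exp (-(955 / 1000000)) * Emean Q (μ - θ)
        ≤ (1 - 955 / 1000000 + (955 / 1000000 : ℝ) ^ 2 / 2 - (955 / 1000000 : ℝ) ^ 3 / 6
            + (955 / 1000000 : ℝ) ^ 4 * (5 / 96)) * (100025663204 / 100000000000) :=
      mul_le_mul hb hU3 hE3nn (by norm_num)
    have h2 : (1 - 955 / 1000000 + (955 / 1000000 : ℝ) ^ 2 / 2 - (955 / 1000000 : ℝ) ^ 3 / 6
            + (955 / 1000000 : ℝ) ^ 4 * (5 / 96)) * (100025663204 / 100000000000)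
        < 99933123943 / 100000000000 := by norm_num
    linarith
  · have hx : ((1 : ℝ) / 1000) * (91 / 100) = 91 / 100000 := by norm_num
    rw [hx]
    have hb := Real.exp_bound' (x := (91 / 100000 : ℝ)) (by norm_num) (by norm_num) (n := 3) (by norm_num)
    have hb' : Real.exp (91 / 100000) ≤ 1 + 91 / 100000 + (91 / 100000 : ℝ) ^ 2 / 2
        + (91 / 100000 : ℝ) ^ 3 * 4 / 18 := by
      refine hb.trans (le_of_eq ?_)
      simp only [sum_range_succ, sum_range_zero, Nat.factorial]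
      norm_num
    have hE4nn : 0 ≤ Emean Q (μ + θ) := by
      unfold Emean
      positivity
    have h1 : Real.exp (91 / 100000) * Emean Q (μ + θ)
        ≤ (1 + 91 / 100000 + (91 / 100000 : ℝ) ^ 2 / 2
        + (91 / 100000 : ℝ) ^ 3 * 4 / 18) * (99840807970 / 100000000000) :=
      mul_le_mul hb' hU4 hE4nn (by norm_num)
    have h2 : (1 + 91 / 100000 + (91 / 100000 : ℝ) ^ 2 / 2
        + (91 / 100000 : ℝ) ^ 3 * 4 / 18) * (99840807970 / 100000000000)
        < 99933123943 / 100000000000 := by norm_num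
    linarith
  · have hb := Real.sum_le_exp_of_nonneg (x := ((49 : ℝ) / 100) * (91 / 100)) (by norm_num) 4
    have hb' : (156 / 100 : ℝ) ≤ Real.exp ((49 / 100) * (91 / 100)) := by
      refine le_trans ?_ hb
      simp only [sum_range_succ, sum_range_zero, Nat.factorial]
      norm_num
    have h1 : (99933123943 / 100000000000 : ℝ) * (156 / 100) ≤
        Emean Q μ * Real.exp ((49 / 100) * (91 / 100)) :=
      mul_le_mul hE hb' (by norm_num) hE0.le
    have h2 : (155 / 100 : ℝ) < (99933123943 / 100000000000 : ℝ) * (156 / 100) := by norm_num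
    linarith

end Vale.Agent.Lib.P230.Skew
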