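import Vale.Agent.Lib.P230.Skew.Box

/-!
# P230 skew route, module S5: the bad set squares at each level.
-/

set_option autoImplicit false

open Finset

namespace Vale.Agent.Lib.P230.Skew

variable {t : ℕ}

namespace SqAux

theorem tree_support {i : ℕ} {A : Finset (Fin t → ℤ)} (h : TreeShape t i A) :
    ∀ z ∈ A, ∀ j : Fin t, i ≤ j.val → z j = 0 := by
  induction h with
  | base =>
    intro z hz j _
    rw [Finset.mem_singleton] at hz
    rw [hz]
    rfl
  | step i hi A B zA zB _ _ hzA hzB _ ihA ihB =>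
    intro z hz j hj
    rw [Finset.mem_union, Finset.mem_image, Finset.mem_image] at hz
    rcases hz with ⟨z', hz', rfl⟩ | ⟨z', hz', rfl⟩
    · simp [ihA z' hz' j (by omega), hzA j (by omega)]
    · simp [ihB z' hz' j (by omega), hzB j (by omega)]

theorem gen_congr {Q : ℕ} {b b' : Fin t → Fin t → ℤ} {l : Fin t} (h : b l = b' l) :
    gen Q b l = gen Q b' l := by
  funext j
  simp [gen, h]

theorem lin_congr {Q i : ℕ} {b b' : Fin t → Fin t → ℤ} (hbb : ∀ j : Fin t, j.val < i → b j = b' j)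
    {z : Fin t → ℤ} (hz : ∀ j : Fin t, i ≤ j.val → z j = 0) : lin Q b z = lin Q b' z := by
  unfold lin
  refine Finset.sum_congr rfl fun l _ => ?_
  by_cases hl : i ≤ l.val
  · rw [hz l hl, zero_smul, zero_smul]
  · rw [gen_congr (hbb l (by omega))]

theorem hgt_congr {i : ℕ} {w w' : Fin t → ℤ} (h : ∀ j : Fin t, j.val < i → w j = w' j) :
    hgt i w = hgt i w' := by
  unfold hgt
  refine Finset.sum_congr rfl fun j _ => ?_
  by_cases hj : j.val < i
  · rw [if_pos hj, if_pos hj, h j hj]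
  · rw [if_neg hj, if_neg hj]

theorem good_congr {Q i : ℕ} {b b' : Fin t → Fin t → ℤ} {T₀ r : ℝ} {y y' : Fin t → ℤ}
    (hbb : ∀ j : Fin t, j.val < i → b j = b' j) (hyy : ∀ j : Fin t, j.val < i → y j = y' j)
    (h : Good Q b i T₀ r y) : Good Q b' i T₀ r y' := by
  obtain ⟨A, hA, hc⟩ := h
  refine ⟨A, hA, ?_⟩
  have e : A.filter (fun z => hgt i (y' - lin Q b' z) ≤ r) =
      A.filter (fun z => hgt i (y - lin Q b z) ≤ r) := by
    apply Finset.filter_congr
    intro z hz
    rw [lin_congr hbb (tree_support hA z hz)]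
    rw [hgt_congr (w := y' - lin Q b' z) (w' := y - lin Q b' z)
      (fun j hj => by simp only [Pi.sub_apply, hyy j hj])]
  rw [e]
  exact hc

theorem tree_translate {i : ℕ} {A : Finset (Fin t → ℤ)} (h : TreeShape t i A) :
    ∀ v : Fin t → ℤ, (∀ j : Fin t, i ≤ j.val → v j = 0) → TreeShape t i (A.image (· + v)) := by
  induction h with
  | base =>
    intro v hv
    have e : v = 0 := by
      funext j
      exact hv j (Nat.zero_le _)
    subst e
    simpa using TreeShape.base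
  | step i hi A B zA zB hA hB hzA hzB hz ihA ihB =>
    intro v hv
    set I : Fin t := ⟨i, hi⟩ with hI
    set v' : Fin t → ℤ := Function.update v I 0 with hv'
    have hv'0 : ∀ j : Fin t, i ≤ j.val → v' j = 0 := by
      intro j hj
      by_cases hjI : j = I
      · subst hjI
        simp [hv']
      · have hne : j.val ≠ i := fun h => hjI (Fin.ext h)
        rw [hv', Function.update_of_ne hjI]
        exact hv j (by omega)
    have hdec : ∀ x : Fin t → ℤ, ∀ zz : Fin t → ℤ, x + zz + v = x + v' + (zz + Pi.single I (v I)) := by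
      intro x zz
      funext j
      by_cases hjI : j = I
      · subst hjI
        simp [hv']
        ring
      · simp [hv', Function.update_of_ne hjI, Pi.single_eq_of_ne hjI]
        ring
    have e : (A.image (· + zA) ∪ B.image (· + zB)).image (· + v) =
        (A.image (· + v')).image (· + (zA + Pi.single I (v I))) ∪
          (B.image (· + v')).image (· + (zB + Pi.single I (v I))) := by
      rw [Finset.image_union, Finset.image_image, Finset.image_image, Finset.image_image,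
        Finset.image_image]
      congr 2 <;>
      · funext x
        simp only [Function.comp]
        exact hdec x _
    rw [e]
    refine TreeShape.step i hi _ _ _ _ (ihA v' hv'0) (ihB v' hv'0) ?_ ?_ ?_
    · intro j hj
      have hjI : j ≠ I := fun h => by
        rw [h] at hj
        simp [hI] at hj
      simp [hzA j hj, Pi.single_eq_of_ne hjI]
    · intro j hj
      have hjI : j ≠ I := fun h => by
        rw [h] at hj
        simp [hI] at hj
      simp [hzB j hj, Pi.single_eq_of_ne hjI]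
    · simp only [Pi.add_apply]
      rw [hz]
      ring

theorem good_translate {Q i : ℕ} {b : Fin t → Fin t → ℤ} {T₀ r : ℝ} {y w : Fin t → ℤ}
    (hw : ∀ j : Fin t, i ≤ j.val → w j = 0) (h : Good Q b i T₀ r y) :
    Good Q b i T₀ r (y + lin Q b w) := by
  obtain ⟨A, hA, hc⟩ := h
  refine ⟨A.image (· + w), tree_translate hA w hw, ?_⟩
  refine hc.trans ?_
  have hinj : Function.Injective (fun z : Fin t → ℤ => z + w) := add_left_injective w
  rw [← Finset.card_image_of_injective _ hinj]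
  refine Nat.cast_le.2 (Finset.card_le_card ?_)
  intro z' hz'
  rw [Finset.mem_image] at hz'
  obtain ⟨z, hz, rfl⟩ := hz'
  rw [Finset.mem_filter] at hz ⊢
  refine ⟨Finset.mem_image_of_mem _ hz.1, ?_⟩
  have e : y + lin Q b w - lin Q b (z + w) = y - lin Q b z := by
    rw [lin_add]
    abel
  rw [e]
  exact hz.2

theorem exists_tree (i : ℕ) (hi : i ≤ t) : ∃ A : Finset (Fin t → ℤ), TreeShape t i A := by
  induction i with
  | zero => exact ⟨_, TreeShape.base⟩
  | succ i ih =>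
    obtain ⟨A, hA⟩ := ih (by omega)
    have hit : i < t := hi
    refine ⟨_, TreeShape.step i hit A A 0 (Pi.single ⟨i, hit⟩ 1) hA hA ?_ ?_ ?_⟩
    · intro j _
      rfl
    · intro j hj
      have hjI : j ≠ ⟨i, hit⟩ := fun h => by
        rw [h] at hj
        simp at hj
      simp [Pi.single_eq_of_ne hjI]
    · simp

theorem hgt_succ (I : Fin t) (w : Fin t → ℤ) :
    hgt (I.val + 1) w = hgt I.val w + ((w I : ℤ) : ℝ) ^ 2 := by
  unfold hgt
  have e : ((w I : ℤ) : ℝ) ^ 2 = ∑ j : Fin t, if j = I then ((w j : ℤ) : ℝ) ^ 2 else 0 := by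
    rw [Finset.sum_ite_eq' Finset.univ I]
    simp
  rw [e, ← Finset.sum_add_distrib]
  refine Finset.sum_congr rfl fun j _ => ?_
  by_cases hj : j = I
  · subst hj
    simp
  · have hne : j.val ≠ I.val := fun h => hj (Fin.ext h)
    by_cases hlt : j.val < I.val
    · rw [if_pos (by omega), if_pos hlt, if_neg hj, add_zero]
    · rw [if_neg (by omega), if_neg hlt, if_neg hj, add_zero]

theorem sq_le_of_abs {v : ℤ} {Q : ℕ} (h0 : -(Q : ℤ) ≤ v) (h1 : v ≤ Q) :
    ((v : ℤ) : ℝ) ^ 2 ≤ (Q : ℝ) ^ 2 := by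
  have h0' : -(Q : ℝ) ≤ (v : ℝ) := by exact_mod_cast h0
  have h1' : (v : ℝ) ≤ Q := by exact_mod_cast h1
  exact sq_le_sq' h0' h1'

/-- One more level: a good child gives a good parent. -/
theorem step_good {Q : ℕ} {b : Fin t → Fin t → ℤ} {T₀ r : ℝ} (I : Fin t) {y : Fin t → ℤ}
    (h0 : 0 ≤ y I) (h1 : y I < Q)
    (hor : Good Q b I.val T₀ r y ∨ Good Q b I.val T₀ r (y - gen Q b I)) :
    Good Q b (I.val + 1) T₀ (r + (Q : ℝ) ^ 2) y := by
  obtain ⟨B₀, hB₀⟩ := exists_tree (t := t) I.val I.isLt.le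
  have hz1 : ∀ j : Fin t, I.val < j.val → (Pi.single I (1 : ℤ) : Fin t → ℤ) j = 0 := by
    intro j hj
    have hjI : j ≠ I := fun h => by
      rw [h] at hj
      exact lt_irrefl _ hj
    exact Pi.single_eq_of_ne hjI _
  rcases hor with ⟨A, hA, hc⟩ | ⟨A, hA, hc⟩
  · refine ⟨_, TreeShape.step I.val I.isLt A B₀ 0 (Pi.single I 1) hA hB₀ (fun _ _ => rfl) hz1
      (by simp), ?_⟩
    refine hc.trans (Nat.cast_le.2 (Finset.card_le_card ?_))
    intro z hz
    rw [Finset.mem_filter] at hz ⊢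
    refine ⟨Finset.mem_union_left _ (Finset.mem_image.2 ⟨z, hz.1, by simp⟩), ?_⟩
    rw [hgt_succ]
    have hl0 : lin Q b z I = 0 :=
      lin_apply_of_support b (tree_support hA z hz.1) I (le_refl _)
    have hv : (y - lin Q b z) I = y I := by simp [hl0]
    rw [hv]
    have := sq_le_of_abs (v := y I) (Q := Q) (by linarith [(Int.natCast_nonneg Q)]) h1.le
    linarith [hz.2]
  · refine ⟨_, TreeShape.step I.val I.isLt B₀ A 0 (Pi.single I 1) hB₀ hA (fun _ _ => rfl) hz1
      (by simp), ?_⟩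
    refine hc.trans ?_
    have hinj : Function.Injective (fun z : Fin t → ℤ => z + Pi.single I 1) :=
      add_left_injective _
    rw [← Finset.card_image_of_injective _ hinj]
    refine Nat.cast_le.2 (Finset.card_le_card ?_)
    intro z' hz'
    rw [Finset.mem_image] at hz'
    obtain ⟨z, hz, rfl⟩ := hz'
    rw [Finset.mem_filter] at hz ⊢
    refine ⟨Finset.mem_union_right _ (Finset.mem_image_of_mem _ hz.1), ?_⟩
    have e : y - lin Q b (z + Pi.single I 1) = y - gen Q b I - lin Q b z := by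
      rw [lin_add, lin_single, one_smul]
      abel
    rw [e, hgt_succ]
    have hl0 : lin Q b z I = 0 :=
      lin_apply_of_support b (tree_support hA z hz.1) I (le_refl _)
    have hv : (y - gen Q b I - lin Q b z) I = y I - Q := by
      simp [hl0, gen_apply_self]
    rw [hv]
    have := sq_le_of_abs (v := y I - Q) (Q := Q) (by linarith) (by
      have := Int.natCast_nonneg Q
      linarith)
    linarith [hz.2]

open Classical in
/-- The indicator of the bad set. -/
noncomputable def ind (Q : ℕ) (b : Fin t → Fin t → ℤ) (i : ℕ) (T₀ r : ℝ) (y : Fin t → ℤ) : ℝ :=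
  if Good Q b i T₀ r y then 0 else 1

theorem ind_nonneg (Q : ℕ) (b : Fin t → Fin t → ℤ) (i : ℕ) (T₀ r : ℝ) (y : Fin t → ℤ) :
    0 ≤ ind Q b i T₀ r y := by
  unfold ind
  split_ifs <;> norm_num

theorem ind_eq_zero {Q : ℕ} {b : Fin t → Fin t → ℤ} {i : ℕ} {T₀ r : ℝ} {y : Fin t → ℤ}
    (h : Good Q b i T₀ r y) : ind Q b i T₀ r y = 0 := by
  unfold ind
  rw [if_pos h]

theorem ind_eq_one {Q : ℕ} {b : Fin t → Fin t → ℤ} {i : ℕ} {T₀ r : ℝ} {y : Fin t → ℤ}
    (h : ¬ Good Q b i T₀ r y) : ind Q b i T₀ r y = 1 := by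
  unfold ind
  rw [if_neg h]

theorem good_add_gen {Q i : ℕ} {b : Fin t → Fin t → ℤ} {T₀ r : ℝ} {j : Fin t} (hj : j.val < i)
    (y : Fin t → ℤ) : Good Q b i T₀ r (y + gen Q b j) ↔ Good Q b i T₀ r y := by
  have hs : ∀ (k : ℤ) (l : Fin t), i ≤ l.val → (Pi.single j k : Fin t → ℤ) l = 0 := by
    intro k l hl
    have hlj : l ≠ j := fun h => by
      rw [h] at hl
      omega
    exact Pi.single_eq_of_ne hlj _
  constructor
  · intro h
    have h' := good_translate (hs (-1)) h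
    rw [lin_single] at h'
    have e : y + gen Q b j + (-1 : ℤ) • gen Q b j = y := by
      simp
    rwa [e] at h'
  · intro h
    have h' := good_translate (hs 1) h
    rwa [lin_single, one_smul] at h'

theorem ind_per (Q : ℕ) (b : Fin t → Fin t → ℤ) (i : ℕ) (T₀ r : ℝ) :
    Per Q b i (ind Q b i T₀ r) where
  dep := by
    intro y y' h
    have h1 : Good Q b i T₀ r y ↔ Good Q b i T₀ r y' :=
      ⟨good_congr (fun _ _ => rfl) h, good_congr (fun _ _ => rfl) (fun j hj => (h j hj).symm)⟩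
    by_cases hg : Good Q b i T₀ r y
    · rw [ind_eq_zero hg, ind_eq_zero (h1.1 hg)]
    · rw [ind_eq_one hg, ind_eq_one (fun h => hg (h1.2 h))]
  per := by
    intro j hj y
    by_cases hg : Good Q b i T₀ r y
    · rw [ind_eq_zero hg, ind_eq_zero ((good_add_gen hj y).2 hg)]
    · rw [ind_eq_one hg, ind_eq_one (fun h => hg ((good_add_gen hj y).1 h))]

theorem card_box {Q i : ℕ} (hi : i ≤ t) : (((box (t := t) Q i).card : ℕ) : ℝ) = (Q : ℝ) ^ i := by
  induction i with
  | zero =>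
    rw [box_zero]
    simp
  | succ i ih =>
    have hit : i < t := hi
    have h := sum_box_succ (Q := Q) hit (fun _ => (1 : ℝ))
    simp only [Finset.sum_const, nsmul_eq_mul, mul_one, Int.card_Ico, sub_zero, Int.toNat_natCast]
      at h
    rw [h, ih (by omega), pow_succ]
    ring

theorem box_nonempty {Q i : ℕ} (hQ : 0 < Q) : (box (t := t) Q i).Nonempty := by
  refine ⟨0, ?_⟩
  rw [mem_box]
  intro j
  refine ⟨fun _ => ⟨le_refl _, ?_⟩, fun _ => rfl⟩
  change (0 : ℤ) < Q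
  exact_mod_cast hQ

/-- Averaging over the shears. -/
theorem exists_shear {Q i : ℕ} (hQ : 0 < Q) (hi : i ≤ t) {b : Fin t → Fin t → ℤ}
    {f : (Fin t → ℤ) → ℝ} (hf : Per Q b i f) :
    ∃ β ∈ box (t := t) Q i, ∑ y ∈ box Q i, f y * f (y - β) ≤
      (∑ y ∈ box Q i, f y) ^ 2 / (Q : ℝ) ^ i := by
  have hQi : 0 < (Q : ℝ) ^ i := by positivity
  have total : ∑ β ∈ box (t := t) Q i, ∑ y ∈ box Q i, f y * f (y - β) =
      (∑ y ∈ box Q i, f y) ^ 2 := by
    rw [Finset.sum_comm, sq, Finset.sum_mul]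
    refine Finset.sum_congr rfl fun y _ => ?_
    rw [← Finset.mul_sum, sum_box_sub hQ hi b f hf y]
  apply Finset.exists_le_of_sum_le (box_nonempty hQ)
  rw [total, Finset.sum_const, nsmul_eq_mul, card_box hi]
  field_simp
  exact le_refl _

/-- The number of bad points. -/
noncomputable def badSum (Q : ℕ) (b : Fin t → Fin t → ℤ) (i : ℕ) (T₀ r : ℝ) : ℝ :=
  ∑ y ∈ box Q i, ind Q b i T₀ r y

theorem badSum_nonneg (Q : ℕ) (b : Fin t → Fin t → ℤ) (i : ℕ) (T₀ r : ℝ) :
    0 ≤ badSum Q b i T₀ r :=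
  Finset.sum_nonneg fun _ _ => ind_nonneg _ _ _ _ _ _

/-- The pointwise bound of one level. -/
theorem pt_bound {Q : ℕ} (I : Fin t) {b b' : Fin t → Fin t → ℤ} {β : Fin t → ℤ}
    (hrows : ∀ j : Fin t, j.val < I.val → b j = b' j)
    (hgen : ∀ j : Fin t, j < I → gen Q b' I j = β j) (T₀ r : ℝ) {x : ℤ} (hx0 : 0 ≤ x)
    (hx1 : x < Q) {y' : Fin t → ℤ} (hy' : y' ∈ box Q I.val) :
    ind Q b' (I.val + 1) T₀ (r + (Q : ℝ) ^ 2) (y' + Pi.single I x) ≤
      ind Q b I.val T₀ r y' * ind Q b I.val T₀ r (y' - β) := by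
  rw [mem_box] at hy'
  have hy'0 : y' I = 0 := (hy' I).2 (lt_irrefl _)
  have hyI : (y' + Pi.single I x : Fin t → ℤ) I = x := by simp [hy'0]
  by_cases hg : Good Q b' (I.val + 1) T₀ (r + (Q : ℝ) ^ 2) (y' + Pi.single I x)
  · rw [ind_eq_zero hg]
    exact mul_nonneg (ind_nonneg _ _ _ _ _ _) (ind_nonneg _ _ _ _ _ _)
  · rw [ind_eq_one hg]
    have hn1 : ¬ Good Q b' I.val T₀ r (y' + Pi.single I x) := fun h =>
      hg (step_good I (by rw [hyI]; exact hx0) (by rw [hyI]; exact hx1) (Or.inl h))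
    have hn2 : ¬ Good Q b' I.val T₀ r (y' + Pi.single I x - gen Q b' I) := fun h =>
      hg (step_good I (by rw [hyI]; exact hx0) (by rw [hyI]; exact hx1) (Or.inr h))
    have hc1 : ¬ Good Q b I.val T₀ r y' := fun h => by
      refine hn1 (good_congr hrows ?_ h)
      intro j hj
      have hjI : j ≠ I := fun h => by
        rw [h] at hj
        exact lt_irrefl _ hj
      simp [Pi.single_eq_of_ne hjI]
    have hc2 : ¬ Good Q b I.val T₀ r (y' - β) := fun h => by
      refine hn2 (good_congr hrows ?_ h)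
      intro j hj
      have hjI : j ≠ I := fun h => by
        rw [h] at hj
        exact lt_irrefl _ hj
      simp [Pi.single_eq_of_ne hjI, hgen j hj]
    rw [ind_eq_one hc1, ind_eq_one hc2, mul_one]

/-- The arithmetic of one level. -/
theorem step_arith {Q : ℝ} (hQ : 0 < Q) (n : ℕ) {S B D : ℝ} (hS : S ≤ B ^ 2 / Q ^ n) (hB0 : 0 ≤ B)
    (hB : B ≤ D * Q ^ n) : Q * S ≤ D ^ 2 * Q ^ (n + 1) := by
  have hQn : 0 < Q ^ n := by positivity
  calc Q * S ≤ Q * (B ^ 2 / Q ^ n) := mul_le_mul_of_nonneg_left hS hQ.le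
    _ ≤ Q * ((D * Q ^ n) ^ 2 / Q ^ n) := by
        apply mul_le_mul_of_nonneg_left _ hQ.le
        apply div_le_div_of_nonneg_right _ hQn.le
        exact pow_le_pow_left₀ hB0 hB 2
    _ = D ^ 2 * Q ^ (n + 1) := by
        field_simp
        ring

/-- One level of squaring. -/
theorem step_bound {Q : ℕ} (hQ : 0 < Q) (I : Fin t) (b : Fin t → Fin t → ℤ)
    (hb : ∀ i j, 0 ≤ b i j ∧ b i j < Q) (T₀ r D : ℝ) (hbad : badSum Q b I.val T₀ r ≤ D * (Q : ℝ) ^ I.val) :
    ∃ b' : Fin t → Fin t → ℤ, (∀ j : Fin t, j.val < I.val → b' j = b j) ∧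
      (∀ i j, 0 ≤ b' i j ∧ b' i j < Q) ∧
      badSum Q b' (I.val + 1) T₀ (r + (Q : ℝ) ^ 2) ≤ D ^ 2 * (Q : ℝ) ^ (I.val + 1) := by
  have hf := ind_per Q b I.val T₀ r
  obtain ⟨β, hβ, hβs⟩ := exists_shear hQ I.isLt.le hf
  rw [mem_box] at hβ
  obtain ⟨b', hb'⟩ : ∃ b' : Fin t → Fin t → ℤ,
      b' = Function.update b I (fun j => if j < I then β j else b I j) := ⟨_, rfl⟩
  have hrows : ∀ j : Fin t, j.val < I.val → b' j = b j := by
    intro j hj
    have hjI : j ≠ I := fun h => by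
      rw [h] at hj
      exact lt_irrefl _ hj
    rw [hb', Function.update_of_ne hjI]
  have hbounds : ∀ i j, 0 ≤ b' i j ∧ b' i j < Q := by
    intro i j
    by_cases hi : i = I
    · subst hi
      rw [hb', Function.update_self]
      by_cases hj : j < i
      · simp only [if_pos hj]
        exact (hβ j).1 hj
      · simp only [if_neg hj]
        exact hb i j
    · rw [hb', Function.update_of_ne hi]
      exact hb i j
  have hgen : ∀ j : Fin t, j < I → gen Q b' I j = β j := by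
    intro j hj
    have hjI : j ≠ I := ne_of_lt hj
    simp [gen, hjI, hj, hb']
  refine ⟨b', hrows, hbounds, ?_⟩
  have hsum : 0 ≤ ∑ y ∈ box Q I.val, ind Q b I.val T₀ r y :=
    Finset.sum_nonneg fun _ _ => ind_nonneg _ _ _ _ _ _
  have hQ0 : (0 : ℝ) < Q := by exact_mod_cast hQ
  have hsplit : badSum Q b' (I.val + 1) T₀ (r + (Q : ℝ) ^ 2) =
      ∑ a ∈ Finset.Ico (0 : ℤ) Q, ∑ x' ∈ box Q I.val,
        ind Q b' (I.val + 1) T₀ (r + (Q : ℝ) ^ 2) (x' + Pi.single I a) :=
    sum_box_succ I.isLt _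
  have hle : ∑ a ∈ Finset.Ico (0 : ℤ) Q, ∑ x' ∈ box Q I.val,
        ind Q b' (I.val + 1) T₀ (r + (Q : ℝ) ^ 2) (x' + Pi.single I a) ≤
      ∑ _a ∈ Finset.Ico (0 : ℤ) Q, ∑ y' ∈ box Q I.val,
        ind Q b I.val T₀ r y' * ind Q b I.val T₀ r (y' - β) := by
    refine Finset.sum_le_sum fun x hx => Finset.sum_le_sum fun y' hy' => ?_
    rw [Finset.mem_Ico] at hx
    exact pt_bound I (fun j hj => (hrows j hj).symm) hgen T₀ r hx.1 hx.2 hy'
  have hconst : ∑ _a ∈ Finset.Ico (0 : ℤ) Q, ∑ y' ∈ box Q I.val,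
        ind Q b I.val T₀ r y' * ind Q b I.val T₀ r (y' - β) =
      (Q : ℝ) * ∑ y' ∈ box Q I.val, ind Q b I.val T₀ r y' * ind Q b I.val T₀ r (y' - β) := by
    rw [Finset.sum_const, nsmul_eq_mul]
    simp
  rw [hsplit]
  refine (hle.trans (le_of_eq hconst)).trans ?_
  exact step_arith hQ0 I.val hβs hsum hbad

/-- Iteration. -/
theorem iter {Q : ℕ} (hQ : 0 < Q) (b : Fin t → Fin t → ℤ) (hb : ∀ i j, 0 ≤ b i j ∧ b i j < Q)
    (i : ℕ) (T₀ r D : ℝ) (hbad : badSum Q b i T₀ r ≤ D * (Q : ℝ) ^ i) (k : ℕ) (hik : i + k ≤ t) :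
    ∃ b' : Fin t → Fin t → ℤ, (∀ j : Fin t, j.val < i → b' j = b j) ∧
      (∀ i j, 0 ≤ b' i j ∧ b' i j < Q) ∧
      badSum Q b' (i + k) T₀ (r + (k : ℝ) * (Q : ℝ) ^ 2) ≤ D ^ (2 ^ k) * (Q : ℝ) ^ (i + k) := by
  induction k with
  | zero =>
    refine ⟨b, fun _ _ => rfl, hb, ?_⟩
    simpa using hbad
  | succ k ih =>
    obtain ⟨b₁, hrows, hbounds, hb₁⟩ := ih (by omega)
    have hlt : i + k < t := by omega
    obtain ⟨b₂, hrows₂, hbounds₂, hb₂⟩ :=
      step_bound hQ (⟨i + k, hlt⟩ : Fin t) b₁ hbounds T₀ (r + (k : ℝ) * (Q : ℝ) ^ 2) (D ^ (2 ^ k)) hb₁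
    refine ⟨b₂, ?_, hbounds₂, ?_⟩
    · intro j hj
      rw [hrows₂ j (by simp; omega), hrows j hj]
    · have e1 : r + ((k + 1 : ℕ) : ℝ) * (Q : ℝ) ^ 2 =
          r + (k : ℝ) * (Q : ℝ) ^ 2 + (Q : ℝ) ^ 2 := by
        push_cast
        ring
      have e2 : D ^ (2 ^ (k + 1)) = (D ^ (2 ^ k)) ^ 2 := by
        rw [pow_succ 2 k, pow_mul]
      rw [e1, e2]
      exact hb₂

end SqAux

open SqAux in
/-- MODULE S5 (Squaring.lean). The bad set squares at each level. -/
theorem squaring {Q : ℕ} (hQ : 0 < Q) (b : Fin t → Fin t → ℤ) (hb : ∀ i j, 0 ≤ b i j ∧ b i j < Q) (i k : ℕ)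
    (hik : i + k ≤ t) (T₀ r π : ℝ) (hπ0 : 0 < π) (hπ1 : π ≤ 1)
    (hgood : open Classical in (π * (Q : ℝ) ^ i ≤ (((box Q i).filter fun y => Good Q b i T₀ r y).card : ℝ)))
    (hsmall : (1 - π) ^ (2 ^ k) * (Q : ℝ) ^ (i + k) < 1) :
    ∃ b' : Fin t → Fin t → ℤ, (∀ j : Fin t, j.val < i → b' j = b j) ∧ (∀ i j, 0 ≤ b' i j ∧ b' i j < Q) ∧
      ∀ y, Good Q b' (i + k) T₀ (r + (k : ℝ) * (Q : ℝ) ^ 2) y := by
  classical
  have hit : i ≤ t := by omega
  -- the initial density
  have hbad : badSum Q b i T₀ r ≤ (1 - π) * (Q : ℝ) ^ i := by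
    have h1 : (((box (t := t) Q i).filter fun y => Good Q b i T₀ r y).card : ℝ) +
        badSum Q b i T₀ r = (Q : ℝ) ^ i := by
      rw [← card_box hit, Finset.natCast_card_filter]
      unfold badSum
      rw [← Finset.sum_add_distrib]
      have hone : ∀ y ∈ box (t := t) Q i,
          (if Good Q b i T₀ r y then (1 : ℝ) else 0) + ind Q b i T₀ r y = 1 := by
        intro y _
        by_cases hg : Good Q b i T₀ r y
        · rw [if_pos hg, ind_eq_zero hg, add_zero]
        · rw [if_neg hg, ind_eq_one hg, zero_add]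
      rw [Finset.sum_congr rfl hone]
      simp
    have hgood' : π * (Q : ℝ) ^ i ≤ (((box (t := t) Q i).filter fun y => Good Q b i T₀ r y).card : ℝ) := by
      exact hgood
    linarith
  obtain ⟨b', hrows, hbounds, hb'⟩ := iter hQ b hb i T₀ r (1 - π) hbad k hik
  refine ⟨b', hrows, hbounds, ?_⟩
  have hlt : badSum Q b' (i + k) T₀ (r + (k : ℝ) * (Q : ℝ) ^ 2) < 1 := lt_of_le_of_lt hb' hsmall
  -- every point of the box is good
  have hbox : ∀ y ∈ box (t := t) Q (i + k), Good Q b' (i + k) T₀ (r + (k : ℝ) * (Q : ℝ) ^ 2) y := by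
    intro y hy
    by_contra hg
    have h1 : ind Q b' (i + k) T₀ (r + (k : ℝ) * (Q : ℝ) ^ 2) y ≤
        badSum Q b' (i + k) T₀ (r + (k : ℝ) * (Q : ℝ) ^ 2) :=
      Finset.single_le_sum (f := fun y => ind Q b' (i + k) T₀ (r + (k : ℝ) * (Q : ℝ) ^ 2) y)
        (fun _ _ => ind_nonneg _ _ _ _ _ _) hy
    rw [ind_eq_one hg] at h1
    linarith
  intro y
  obtain ⟨z, hz, hrep⟩ := exists_box_rep (i := i + k) hQ hik b' y
  set y₀ : Fin t → ℤ := y - lin Q b' z with hy₀
  let x : Fin t → ℤ := fun j => if j.val < i + k then y₀ j else 0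
  have hx : x ∈ box (t := t) Q (i + k) := by
    rw [mem_box]
    intro j
    refine ⟨fun hj => ?_, fun hj => ?_⟩
    · simp only [x, if_pos hj]
      exact hrep j hj
    · simp only [x, if_neg hj]
  have hg0 : Good Q b' (i + k) T₀ (r + (k : ℝ) * (Q : ℝ) ^ 2) y₀ :=
    good_congr (fun _ _ => rfl) (fun j hj => by simp only [x, if_pos hj]) (hbox x hx)
  have hg1 := good_translate hz hg0
  rwa [hy₀, sub_add_cancel] at hg1

end Vale.Agent.Lib.P230.Skew
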