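import Vale.Agent.Lib.P230.Skew.Numerics

/-!
# P230 skew route, tuned parameters: the numerics for `Q = 2000`.
-/

set_option autoImplicit false

open Finset

namespace Vale.Agent.Lib.P230.Skew
namespace SkewNum

/-- Closed form of the mean. -/
lemma Emean_eq2 (μ : ℝ) :
    Emean 2000 μ = (1 / 2000) * (2 * ∑ x ∈ range 2000, Real.exp (-μ) ^ (x ^ 2)
      + Real.exp (-μ) ^ (2000 ^ 2) - 1) := by
  unfold Emean
  rw [sum_add_distrib]
  have h1 : ∑ x ∈ range 2000, Real.exp (-(μ * (((2000 : ℕ) : ℝ) - (x : ℝ)) ^ 2))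
      = ∑ x ∈ range 2000, Real.exp (-μ) ^ ((x + 1) ^ 2) := by
    rw [← sum_range_reflect]
    refine sum_congr rfl fun x hx => ?_
    have hx' : x < 2000 := mem_range.mp hx
    have hc : (((2000 : ℕ) : ℝ) - ((2000 - 1 - x : ℕ) : ℝ)) = ((x + 1 : ℕ) : ℝ) := by
      have : 2000 - 1 - x + (x + 1) = 2000 := by omega
      have h2 : ((2000 - 1 - x + (x + 1) : ℕ) : ℝ) = ((2000 : ℕ) : ℝ) := by rw [this]
      rw [← h2]
      push_cast
      ring
    rw [hc, exp_sq]
  have h2 : ∑ x ∈ range 2000, Real.exp (-μ) ^ ((x + 1) ^ 2)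
      = ∑ x ∈ range 2000, Real.exp (-μ) ^ (x ^ 2) + Real.exp (-μ) ^ (2000 ^ 2) - 1 := by
    have h3 := sum_range_succ (fun x => Real.exp (-μ) ^ (x ^ 2)) 2000
    have h4 := sum_range_succ' (fun x => Real.exp (-μ) ^ (x ^ 2)) 2000
    rw [h3] at h4
    simp only [ne_eq, OfNat.ofNat_ne_zero, not_false_eq_true, zero_pow, pow_zero] at h4
    linarith
  rw [h1, h2]
  have h3 : ∑ x ∈ range 2000, Real.exp (-(μ * (x : ℝ) ^ 2))
      = ∑ x ∈ range 2000, Real.exp (-μ) ^ (x ^ 2) :=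
    sum_congr rfl fun x _ => exp_sq μ x
  rw [h3]
  push_cast
  ring

/-- Lower bound of the mean by the recursion. -/
lemma Emean_lower2 {μ : ℝ} {ρ : ℕ} (hρ : (ρ : ℝ) / Sc ≤ Real.exp (-μ)) (L D : ℕ) (hD : 0 < D)
    (hchk : L * 2000 * Sc + D * Sc ≤ D * (2 * (loSeq ρ 2000).2.2 + (loSeq ρ 2000).1)) :
    (L : ℝ) / D ≤ Emean 2000 μ := by
  have hS := Sc_pos
  have hDr : (0 : ℝ) < D := by exact_mod_cast hD
  have h1 := (lo_spec (Real.exp_pos (-μ)) hρ 2000).2.2
  have h2 := (lo_spec (Real.exp_pos (-μ)) hρ 2000).1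
  have hc : (L : ℝ) * 2000 * Sc + D * Sc ≤ D * (2 * (((loSeq ρ 2000).2.2 : ℕ) : ℝ)
      + (((loSeq ρ 2000).1 : ℕ) : ℝ)) := by exact_mod_cast hchk
  set s : ℝ := (((loSeq ρ 2000).2.2 : ℕ) : ℝ) with hs
  set a : ℝ := (((loSeq ρ 2000).1 : ℕ) : ℝ) with ha
  have key : (L : ℝ) / D * 2000 + 1 ≤ 2 * (s / Sc) + a / Sc := by
    have e1 : (L : ℝ) / D * 2000 + 1 = ((L : ℝ) * 2000 * Sc + D * Sc) / (D * Sc) := by
      field_simp
    have e2 : 2 * (s / Sc) + a / Sc = (D * (2 * s + a)) / (D * Sc) := by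
      field_simp
    rw [e1, e2]
    exact div_le_div_of_nonneg_right hc (mul_pos hDr hS).le
  rw [Emean_eq2]
  linarith

/-- Upper bound of the mean by the recursion. -/
lemma Emean_upper2 {μ : ℝ} {ρ : ℕ} (hρ : Real.exp (-μ) ≤ (ρ : ℝ) / Sc) (L D : ℕ) (hD : 0 < D)
    (hchk : D * (2 * (hiSeq ρ 2000).2.2 + (hiSeq ρ 2000).1) ≤ L * 2000 * Sc + D * Sc) :
    Emean 2000 μ ≤ (L : ℝ) / D := by
  have hS := Sc_pos
  have hDr : (0 : ℝ) < D := by exact_mod_cast hD
  have h1 := (hi_spec (Real.exp_pos (-μ)) hρ 2000).2.2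
  have h2 := (hi_spec (Real.exp_pos (-μ)) hρ 2000).1
  have hc : (D : ℝ) * (2 * (((hiSeq ρ 2000).2.2 : ℕ) : ℝ)
      + (((hiSeq ρ 2000).1 : ℕ) : ℝ)) ≤ (L : ℝ) * 2000 * Sc + D * Sc := by exact_mod_cast hchk
  set s : ℝ := (((hiSeq ρ 2000).2.2 : ℕ) : ℝ) with hs
  set a : ℝ := (((hiSeq ρ 2000).1 : ℕ) : ℝ) with ha
  have key : 2 * (s / Sc) + a / Sc ≤ (L : ℝ) / D * 2000 + 1 := by
    have e1 : (L : ℝ) / D * 2000 + 1 = ((L : ℝ) * 2000 * Sc + D * Sc) / (D * Sc) := by
      field_simp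
    have e2 : 2 * (s / Sc) + a / Sc = (D * (2 * s + a)) / (D * Sc) := by
      field_simp
    rw [e1, e2]
    exact div_le_div_of_nonneg_right hc (mul_pos hDr hS).le
  rw [Emean_eq2]
  linarith


/-! The kernel checks for `Q = 2000`. -/

lemma chkb1 : 103109580467 * 2000 * Sc + 100000000000 * Sc ≤
    100000000000 * (2 * (loSeq 1208924956366344312785915 2000).2.2
      + (loSeq 1208924956366344312785915 2000).1) := by
  decide +kernel

lemma chkb2 : 100000000000 * (2 * (hiSeq 1208924093118675863873986 2000).2.2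
      + (hiSeq 1208924093118675863873986 2000).1) ≤ 74104915176 * 2000 * Sc + 100000000000 * Sc := by
  decide +kernel

lemma chkb3 : 100000000000 * (2 * (hiSeq 1208924958255289558584067 2000).2.2
      + (hiSeq 1208924958255289558584067 2000).1) ≤ 103209938617 * 2000 * Sc + 100000000000 * Sc := by
  decide +kernel

lemma chkb4 : 100000000000 * (2 * (hiSeq 1208924954477399069939241 2000).2.2
      + (hiSeq 1208924954477399069939241 2000).1) ≤ 103009472695 * 2000 * Sc + 100000000000 * Sc := by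
  decide +kernel

lemma E1_lower2 : (103109580467 / 100000000000 : ℝ) ≤ Emean 2000 (457 / 640000000) := by
  have hρ : (((1208924956366344312785915 : ℕ) : ℝ)) / (Sc : ℝ) ≤ Real.exp (-(457 / 640000000)) := by
    refine le_trans ?_ (exp_neg_bounds (m := 457 / 640000000) (by norm_num) (by norm_num)).1
    norm_num [Sc]
  have h := Emean_lower2 hρ 103109580467 100000000000 (by norm_num) chkb1
  norm_num at h ⊢
  exact h

lemma E2_upper2 : Emean 2000 (457 / 320000000) ≤ (74104915176 / 100000000000 : ℝ) := by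
  have hρ : Real.exp (-(457 / 320000000)) ≤ (((1208924093118675863873986 : ℕ) : ℝ)) / (Sc : ℝ) := by
    refine le_trans (exp_neg_bounds (m := 457 / 320000000) (by norm_num) (by norm_num)).2 ?_
    norm_num [Sc]
  have h := Emean_upper2 hρ 74104915176 100000000000 (by norm_num) chkb2
  norm_num at h ⊢
  exact h

lemma E3_upper2 : Emean 2000 (456 / 640000000) ≤ (103209938617 / 100000000000 : ℝ) := by
  have hρ : Real.exp (-(456 / 640000000)) ≤ (((1208924958255289558584067 : ℕ) : ℝ)) / (Sc : ℝ) := by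
    refine le_trans (exp_neg_bounds (m := 456 / 640000000) (by norm_num) (by norm_num)).2 ?_
    norm_num [Sc]
  have h := Emean_upper2 hρ 103209938617 100000000000 (by norm_num) chkb3
  norm_num at h ⊢
  exact h

lemma E4_upper2 : Emean 2000 (458 / 640000000) ≤ (103009472695 / 100000000000 : ℝ) := by
  have hρ : Real.exp (-(458 / 640000000)) ≤ (((1208924954477399069939241 : ℕ) : ℝ)) / (Sc : ℝ) := by
    refine le_trans (exp_neg_bounds (m := 458 / 640000000) (by norm_num) (by norm_num)).2 ?_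
    norm_num [Sc]
  have h := Emean_upper2 hρ 103009472695 100000000000 (by norm_num) chkb4
  norm_num at h ⊢
  exact h

lemma exp_neg_crude2 : Real.exp (-(457 / 320 : ℝ)) ≤ 24 / 100 := by
  have h := Real.sum_le_exp_of_nonneg (x := (457 / 320 : ℝ)) (by norm_num) 8
  have h' : (1 / (24 / 100) : ℝ) ≤ Real.exp (457 / 320) := by
    refine le_trans ?_ h
    simp only [sum_range_succ, sum_range_zero, Nat.factorial]
    norm_num
  rw [Real.exp_neg]
  have hp : (0 : ℝ) < 24 / 100 := by norm_num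
  calc (Real.exp (457 / 320))⁻¹ ≤ (1 / (24 / 100) : ℝ)⁻¹ :=
        inv_anti₀ (by norm_num) h'
    _ = 24 / 100 := by norm_num

lemma B_upper2 : Bmean 2000 (457 / 640000000) ≤ (48 / 100 : ℝ) := by
  unfold Bmean
  have hterm : ∀ x ∈ range 2000, 2 * (Real.exp (-((457 / 640000000 : ℝ) * (x : ℝ) ^ 2)) *
      Real.exp (-((457 / 640000000 : ℝ) * (((2000 : ℕ) : ℝ) - x) ^ 2))) ≤ 48 / 100 := by
    intro x _
    rw [← Real.exp_add]
    have h1 : -((457 / 640000000 : ℝ) * (x : ℝ) ^ 2) + -((457 / 640000000 : ℝ) * (((2000 : ℕ) : ℝ) - x) ^ 2)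
        ≤ -(457 / 320 : ℝ) := by
      push_cast
      nlinarith [sq_nonneg ((x : ℝ) - 1000)]
    have h2 := Real.exp_le_exp.mpr h1
    linarith [exp_neg_crude2]
  have hsum := sum_le_card_nsmul (range 2000) _ (48 / 100 : ℝ) hterm
  simp only [card_range, nsmul_eq_mul] at hsum
  push_cast at hsum ⊢
  have h3 : (1 / (2000 : ℝ)) * ∑ x ∈ range 2000, 2 * (Real.exp (-((457 / 640000000 : ℝ) * (x : ℝ) ^ 2)) *
      Real.exp (-((457 / 640000000 : ℝ) * ((2000 : ℝ) - x) ^ 2))) ≤ (1 / (2000 : ℝ)) * (2000 * (48 / 100)) :=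
    mul_le_mul_of_nonneg_left hsum (by norm_num)
  refine h3.trans ?_
  norm_num

end SkewNum

open SkewNum in
/-- The numerics of the tuned parameters. -/
theorem skew_numerics2 :
    let Q : ℕ := 2000
    let μ : ℝ := 457 / 640000000
    let θ : ℝ := 1 / 640000000
    Emean Q (2 * μ) ≤ (3 / 4) * Emean Q μ ^ 2 ∧ Bmean Q μ ≤ (1 / 2) * Emean Q μ ^ 2 ∧
    Real.exp (-((1 / 1000) * (976 / 1000))) * Emean Q (μ - θ) < Emean Q μ ∧
    Real.exp ((1 / 1000) * (969 / 1000)) * Emean Q (μ + θ) < Emean Q μ ∧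
    (1605 / 1000 : ℝ) < Emean Q μ * Real.exp ((457 / 1000) * (969 / 1000)) := by
  intro Q μ θ
  have e2 : (2 * μ : ℝ) = 457 / 320000000 := by simp only [μ]; norm_num
  have e3 : (μ - θ : ℝ) = 456 / 640000000 := by simp only [μ, θ]; norm_num
  have e4 : (μ + θ : ℝ) = 458 / 640000000 := by simp only [μ, θ]; norm_num
  have hE : (103109580467 / 100000000000 : ℝ) ≤ Emean Q μ := E1_lower2
  have hE0 : (0 : ℝ) < Emean Q μ := lt_of_lt_of_le (by norm_num) hE
  have hsq : (103109580467 / 100000000000 : ℝ) ^ 2 ≤ Emean Q μ ^ 2 :=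
    pow_le_pow_left₀ (by norm_num) hE 2
  have hU2 : Emean Q (2 * μ) ≤ (74104915176 / 100000000000 : ℝ) := by rw [e2]; exact E2_upper2
  have hU3 : Emean Q (μ - θ) ≤ (103209938617 / 100000000000 : ℝ) := by rw [e3]; exact E3_upper2
  have hU4 : Emean Q (μ + θ) ≤ (103009472695 / 100000000000 : ℝ) := by rw [e4]; exact E4_upper2
  have hB : Bmean Q μ ≤ (48 / 100 : ℝ) := B_upper2
  refine ⟨?_, ?_, ?_, ?_, ?_⟩
  · have : (74104915176 / 100000000000 : ℝ) ≤ (3 / 4) * (103109580467 / 100000000000 : ℝ) ^ 2 := by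
      norm_num
    linarith
  · have : (48 / 100 : ℝ) ≤ (1 / 2) * (103109580467 / 100000000000 : ℝ) ^ 2 := by norm_num
    linarith
  · have hx : ((1 : ℝ) / 1000) * (976 / 1000) = 976 / 1000000 := by norm_num
    rw [hx]
    have hb := (exp_neg_bounds (m := 976 / 1000000) (by norm_num) (by norm_num)).2
    have hE3nn : 0 ≤ Emean Q (μ - θ) := by
      unfold Emean
      positivity
    have h1 : Real.exp (-(976 / 1000000)) * Emean Q (μ - θ)
        ≤ (1 - 976 / 1000000 + (976 / 1000000 : ℝ) ^ 2 / 2 - (976 / 1000000 : ℝ) ^ 3 / 6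
            + (976 / 1000000 : ℝ) ^ 4 * (5 / 96)) * (103209938617 / 100000000000) :=
      mul_le_mul hb hU3 hE3nn (by norm_num)
    have h2 : (1 - 976 / 1000000 + (976 / 1000000 : ℝ) ^ 2 / 2 - (976 / 1000000 : ℝ) ^ 3 / 6
            + (976 / 1000000 : ℝ) ^ 4 * (5 / 96)) * (103209938617 / 100000000000)
        < 103109580467 / 100000000000 := by norm_num
    linarith
  · have hx : ((1 : ℝ) / 1000) * (969 / 1000) = 969 / 1000000 := by norm_num
    rw [hx]
    have hb := Real.exp_bound' (x := (969 / 1000000 : ℝ)) (by norm_num) (by norm_num) (n := 3) (by norm_num)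
    have hb' : Real.exp (969 / 1000000) ≤ 1 + 969 / 1000000 + (969 / 1000000 : ℝ) ^ 2 / 2
        + (969 / 1000000 : ℝ) ^ 3 * 4 / 18 := by
      refine hb.trans (le_of_eq ?_)
      simp only [sum_range_succ, sum_range_zero, Nat.factorial]
      norm_num
    have hE4nn : 0 ≤ Emean Q (μ + θ) := by
      unfold Emean
      positivity
    have h1 : Real.exp (969 / 1000000) * Emean Q (μ + θ)
        ≤ (1 + 969 / 1000000 + (969 / 1000000 : ℝ) ^ 2 / 2
        + (969 / 1000000 : ℝ) ^ 3 * 4 / 18) * (103009472695 / 100000000000) :=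
      mul_le_mul hb' hU4 hE4nn (by norm_num)
    have h2 : (1 + 969 / 1000000 + (969 / 1000000 : ℝ) ^ 2 / 2
        + (969 / 1000000 : ℝ) ^ 3 * 4 / 18) * (103009472695 / 100000000000)
        < 103109580467 / 100000000000 := by norm_num
    linarith
  · have hb := Real.sum_le_exp_of_nonneg (x := ((457 : ℝ) / 1000) * (969 / 1000)) (by norm_num) 6
    have hb' : (15568 / 10000 : ℝ) ≤ Real.exp ((457 / 1000) * (969 / 1000)) := by
      refine le_trans ?_ hb
      simp only [sum_range_succ, sum_range_zero, Nat.factorial]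
      norm_num
    have h1 : (103109580467 / 100000000000 : ℝ) * (15568 / 10000) ≤
        Emean Q μ * Real.exp ((457 / 1000) * (969 / 1000)) :=
      mul_le_mul hE hb' (by norm_num) hE0.le
    have h2 : (1605 / 1000 : ℝ) < (103109580467 / 100000000000 : ℝ) * (15568 / 10000) := by norm_num
    linarith

end Vale.Agent.Lib.P230.Skew
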