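import Vale.Agent.Lib.P230.Skew.Defs
import Vale.Agent.Lib.P230.Ball.LayerLeaf

/-!
# P230 skew route, module SA: layering over a forest of trees.
-/

set_option autoImplicit false
set_option linter.unusedSectionVars false
set_option linter.unusedVariables false
set_option linter.unusedSimpArgs false

open Finset

namespace Vale.Agent.Lib.P230.Skew

variable {t : ℕ}

theorem TreeShape.support {i : ℕ} {A : Finset (Fin t → ℤ)} (h : TreeShape t i A) :
    ∀ z ∈ A, ∀ j : Fin t, i ≤ j.val → z j = 0 := by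
  induction h with
  | base =>
    intro z hz j _
    rw [Finset.mem_singleton] at hz
    rw [hz]
    rfl
  | step i hi A B zA zB _ _ hzA hzB _ ihA ihB =>
    intro z hz j hj
    rw [Finset.mem_union, Finset.mem_image, Finset.mem_image] at hz
    rcases hz with ⟨z', hz', rfl⟩ | ⟨z', hz', rfl⟩
    · simp only [Pi.add_apply]
      rw [ihA z' hz' j (by omega), hzA j (by omega), add_zero]
    · simp only [Pi.add_apply]
      rw [ihB z' hz' j (by omega), hzB j (by omega), add_zero]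

theorem TreeShape.zero_eq {A : Finset (Fin t → ℤ)} (h : TreeShape t 0 A) : A = {0} := by
  cases h
  rfl

theorem TreeShape.decomp {i : ℕ} {A : Finset (Fin t → ℤ)} (h : TreeShape t (i + 1) A) :
    i < t ∧ ∃ (A' B' : Finset (Fin t → ℤ)) (zA zB : Fin t → ℤ),
      TreeShape t i A' ∧ TreeShape t i B' ∧ (∀ j : Fin t, i < j.val → zA j = 0) ∧
      (∀ j : Fin t, i < j.val → zB j = 0) ∧ (∀ hi : i < t, zB ⟨i, hi⟩ = zA ⟨i, hi⟩ + 1) ∧
      A = A'.image (· + zA) ∪ B'.image (· + zB) := by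
  cases h with
  | step _ hi A' B' zA zB hA hB h1 h2 h3 =>
    exact ⟨hi, A', B', zA, zB, hA, hB, h1, h2, fun _ => h3, rfl⟩

section

variable {G : Type} [AddCommGroup G] [Fintype G] [DecidableEq G]

theorem mem_Uset {N : ℕ} {S : (Fin t → ℤ) → Finset G} {v : Fin t → G} {i : ℕ} {u : Fin t → ℤ}
    {c : G} : c ∈ Uset N S v i u ↔ ∀ z : Fin t → ℤ, (∀ j : Fin t, i ≤ j.val → z j = 0) →
      c - ∑ j, z j • v j ∈ S (u - (N : ℤ) • z) := by
  simp [Uset]

theorem wsum_congr {v v' : Fin t → G} {i : ℕ} (h : ∀ j : Fin t, j.val < i → v j = v' j)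
    {z : Fin t → ℤ} (hz : ∀ j : Fin t, i ≤ j.val → z j = 0) :
    ∑ j, z j • v j = ∑ j, z j • v' j := by
  refine Finset.sum_congr rfl fun j _ => ?_
  by_cases hj : j.val < i
  · rw [h j hj]
  · rw [hz j (by omega), zero_smul, zero_smul]

theorem Uset_congr {N : ℕ} {S : (Fin t → ℤ) → Finset G} {v v' : Fin t → G} {i : ℕ}
    (h : ∀ j : Fin t, j.val < i → v j = v' j) (u : Fin t → ℤ) :
    Uset N S v i u = Uset N S v' i u := by
  ext c
  rw [mem_Uset, mem_Uset]
  constructor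
  · intro hc z hz
    rw [← wsum_congr h hz]
    exact hc z hz
  · intro hc z hz
    rw [wsum_congr h hz]
    exact hc z hz

theorem Uset_succ_sub {N : ℕ} {S : (Fin t → ℤ) → Finset G} {v : Fin t → G} {i : ℕ}
    {u zA : Fin t → ℤ} (hzA : ∀ j : Fin t, i < j.val → zA j = 0) {c : G}
    (hc : c ∈ Uset N S v (i + 1) u) :
    c - ∑ j, zA j • v j ∈ Uset N S v i (u - (N : ℤ) • zA) := by
  rw [mem_Uset] at hc ⊢
  intro z hz
  have h := hc (zA + z) (by
    intro j hj
    simp only [Pi.add_apply]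
    rw [hzA j (by omega), hz j (by omega), add_zero])
  have e1 : ∑ j, (zA + z) j • v j = ∑ j, zA j • v j + ∑ j, z j • v j := by
    rw [← Finset.sum_add_distrib]
    refine Finset.sum_congr rfl fun j _ => ?_
    rw [Pi.add_apply, add_smul]
  have e2 : u - (N : ℤ) • (zA + z) = u - (N : ℤ) • zA - (N : ℤ) • z := by
    rw [smul_add, sub_sub]
  rw [e1, e2, ← sub_sub] at h
  exact h

/-- The product over a tree of the next level. -/
theorem prod_tree (σ' : (Fin t → ℤ) → ℝ) {A' B' : Finset (Fin t → ℤ)} {zA zB : Fin t → ℤ}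
    {i : ℕ} (hi : i < t)
    (hA' : ∀ z ∈ A', ∀ j : Fin t, i ≤ j.val → z j = 0)
    (hB' : ∀ z ∈ B', ∀ j : Fin t, i ≤ j.val → z j = 0)
    (h1 : zB ⟨i, hi⟩ = zA ⟨i, hi⟩ + 1) :
    ∏ z ∈ A'.image (· + zA) ∪ B'.image (· + zB), σ' z =
      (∏ z ∈ A', σ' (z + zA)) * ∏ z ∈ B', σ' (z + zB) := by
  have hdisj : Disjoint (A'.image (· + zA)) (B'.image (· + zB)) := by
    rw [Finset.disjoint_left]
    intro x hx hx'
    obtain ⟨a, ha, rfl⟩ := Finset.mem_image.1 hx
    obtain ⟨b, hb, hab⟩ := Finset.mem_image.1 hx'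
    have h2 := congrFun hab ⟨i, hi⟩
    simp only [Pi.add_apply] at h2
    rw [hA' a ha ⟨i, hi⟩ (le_refl _), hB' b hb ⟨i, hi⟩ (le_refl _), h1] at h2
    omega
  rw [Finset.prod_union hdisj,
    Finset.prod_image (fun a _ b _ h => add_right_cancel h),
    Finset.prod_image (fun a _ b _ h => add_right_cancel h)]

theorem layering_step (N : ℕ)
    (S : (Fin t → ℤ) → Finset G) (σ : (Fin t → ℤ) → ℝ) (hσ : ∀ u, 0 < σ u)
    {i : ℕ} (hi : i < t) {ι : Type} [Fintype ι] (u : ι → Fin t → ℤ)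
    (A' B' : ι → Finset (Fin t → ℤ)) (zA zB : ι → Fin t → ℤ)
    (hA' : ∀ ν, ∀ z ∈ A' ν, ∀ j : Fin t, i ≤ j.val → z j = 0)
    (hB' : ∀ ν, ∀ z ∈ B' ν, ∀ j : Fin t, i ≤ j.val → z j = 0)
    (hzA : ∀ ν, ∀ j : Fin t, i < j.val → zA ν j = 0)
    (hzB : ∀ ν, ∀ j : Fin t, i < j.val → zB ν j = 0)
    (hz1 : ∀ ν, zB ν ⟨i, hi⟩ = zA ν ⟨i, hi⟩ + 1)
    (v : Fin t → G) (D : ℝ)
    (hD : ∑ ν, (((Uset N S v i (u ν - (N : ℤ) • zB ν)).card : ℝ) /
          ((Fintype.card G : ℝ) * ∏ z ∈ B' ν, σ (u ν - (N : ℤ) • zB ν - (N : ℤ) • z)) +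
        ((Uset N S v i (u ν - (N : ℤ) • zA ν)).card : ℝ) /
          ((Fintype.card G : ℝ) * ∏ z ∈ A' ν, σ (u ν - (N : ℤ) • zA ν - (N : ℤ) • z))) ≤ D) :
    ∃ v' : Fin t → G, ∑ ν, ((Uset N S v' (i + 1) (u ν)).card : ℝ) /
      ((Fintype.card G : ℝ) *
        ∏ z ∈ (A' ν).image (· + zA ν) ∪ (B' ν).image (· + zB ν), σ (u ν - (N : ℤ) • z)) ≤ D ^ 2 := by
  classical
  set I : Fin t := ⟨i, hi⟩ with hI
  have hG : (0 : ℝ) < Fintype.card G := by exact_mod_cast Fintype.card_pos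
  set X : ι → Finset G := fun ν => Uset N S v i (u ν - (N : ℤ) • zA ν) with hX
  set Y : ι → Finset G := fun ν => Uset N S v i (u ν - (N : ℤ) • zB ν) with hY
  set PA : ι → ℝ := fun ν => ∏ z ∈ A' ν, σ (u ν - (N : ℤ) • zA ν - (N : ℤ) • z) with hPA
  set PB : ι → ℝ := fun ν => ∏ z ∈ B' ν, σ (u ν - (N : ℤ) • zB ν - (N : ℤ) • z) with hPB
  have hPA0 : ∀ ν, 0 < PA ν := fun ν => Finset.prod_pos fun z _ => hσ _
  have hPB0 : ∀ ν, 0 < PB ν := fun ν => Finset.prod_pos fun z _ => hσ _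
  let κ : ι → G := fun ν => ∑ j, if j = I then 0 else (zB ν j - zA ν j) • v j
  let Y' : ι → Finset G := fun ν => (Y ν).image (· + κ ν)
  have hY'card : ∀ ν, ((Y' ν).card : ℝ) = (Y ν).card := fun ν => by
    have : (Y' ν).card = (Y ν).card :=
      Finset.card_image_of_injective _ (fun a b h => add_right_cancel h)
    exact_mod_cast this
  obtain ⟨τ, hτ⟩ := Vale.Agent.Lib.P230.exists_shift_w (Finset.univ : Finset ι) X Y'
    (fun ν => ((Fintype.card G : ℝ) * (PA ν * PB ν))⁻¹)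
    (fun ν => inv_nonneg.2 (mul_pos hG (mul_pos (hPA0 ν) (hPB0 ν))).le)
  refine ⟨Function.update v I τ, ?_⟩
  set v' : Fin t → G := Function.update v I τ with hv'
  have hbelow : ∀ j : Fin t, j.val < i → v' j = v j := by
    intro j hj
    rw [hv', Function.update_of_ne]
    intro h
    rw [h, hI] at hj
    exact lt_irrefl _ hj
  -- the difference of the shifts
  have hw : ∀ ν, ∑ j, zB ν j • v' j = ∑ j, zA ν j • v' j + τ + κ ν := by
    intro ν
    have h1 : ∑ j, (zB ν j - zA ν j) • v' j = τ + κ ν := by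
      have h2 : ∀ j, (zB ν j - zA ν j) • v' j =
          (if j = I then τ else 0) + (if j = I then 0 else (zB ν j - zA ν j) • v j) := by
        intro j
        by_cases hj : j = I
        · subst hj
          simp only [if_true, add_zero]
          rw [hv', Function.update_self, hz1 ν]
          simp
        · simp only [if_neg hj, zero_add]
          rw [hv', Function.update_of_ne hj]
      rw [Finset.sum_congr rfl (fun j _ => h2 j), Finset.sum_add_distrib]
      congr 1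
      simp
    have h3 : ∑ j, zB ν j • v' j = ∑ j, zA ν j • v' j + ∑ j, (zB ν j - zA ν j) • v' j := by
      rw [← Finset.sum_add_distrib]
      refine Finset.sum_congr rfl fun j _ => ?_
      rw [sub_smul]
      abel
    rw [h3, h1, add_assoc]
  -- the void is contained in the filtered set
  have hsub : ∀ ν, ((Uset N S v' (i + 1) (u ν)).card : ℝ) ≤
      (((X ν).filter fun c => c - τ ∈ Y' ν).card : ℝ) := by
    intro ν
    have : (Uset N S v' (i + 1) (u ν)).card ≤ ((X ν).filter fun c => c - τ ∈ Y' ν).card := by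
      refine Finset.card_le_card_of_injOn (fun c => c - ∑ j, zA ν j • v' j) ?_ ?_
      · intro c hc
        have hc' : c ∈ Uset N S v' (i + 1) (u ν) := hc
        have hA1 := Uset_succ_sub (hzA ν) hc'
        have hB1 := Uset_succ_sub (hzB ν) hc'
        rw [Uset_congr hbelow] at hA1 hB1
        refine Finset.mem_coe.2 (Finset.mem_filter.2 ⟨hA1, ?_⟩)
        refine Finset.mem_image.2 ⟨_, hB1, ?_⟩
        simp only
        rw [hw ν]
        abel
      · intro a _ b _ hab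
        exact sub_left_inj.mp hab
    exact_mod_cast this
  set a : ι → ℝ := fun ν => ((X ν).card : ℝ) / ((Fintype.card G : ℝ) * PA ν) with ha
  set b : ι → ℝ := fun ν => ((Y ν).card : ℝ) / ((Fintype.card G : ℝ) * PB ν) with hb
  have ha0 : ∀ ν, 0 ≤ a ν := fun ν => div_nonneg (Nat.cast_nonneg _) (mul_pos hG (hPA0 ν)).le
  have hb0 : ∀ ν, 0 ≤ b ν := fun ν => div_nonneg (Nat.cast_nonneg _) (mul_pos hG (hPB0 ν)).le
  have hDab : ∑ ν, (b ν + a ν) ≤ D := hD
  have hsa : ∑ ν, a ν ≤ D := by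
    refine le_trans (Finset.sum_le_sum fun ν _ => ?_) hDab
    linarith [hb0 ν]
  have hsb : ∑ ν, b ν ≤ D := by
    refine le_trans (Finset.sum_le_sum fun ν _ => ?_) hDab
    linarith [ha0 ν]
  have hsa0 : 0 ≤ ∑ ν, a ν := Finset.sum_nonneg fun ν _ => ha0 ν
  have hsb0 : 0 ≤ ∑ ν, b ν := Finset.sum_nonneg fun ν _ => hb0 ν
  have hab : ∑ ν, a ν * b ν ≤ D ^ 2 := by
    calc ∑ ν, a ν * b ν ≤ ∑ ν, a ν * ∑ μ, b μ := by
          refine Finset.sum_le_sum fun ν _ => mul_le_mul_of_nonneg_left ?_ (ha0 ν)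
          exact Finset.single_le_sum (fun μ _ => hb0 μ) (Finset.mem_univ ν)
      _ = (∑ ν, a ν) * ∑ μ, b μ := by rw [Finset.sum_mul]
      _ ≤ D * D := mul_le_mul hsa hsb hsb0 (hsa0.trans hsa)
      _ = D ^ 2 := by ring
  refine le_trans ?_ hab
  -- each term
  have hterm : ∀ ν, ((Uset N S v' (i + 1) (u ν)).card : ℝ) /
      ((Fintype.card G : ℝ) *
        ∏ z ∈ (A' ν).image (· + zA ν) ∪ (B' ν).image (· + zB ν), σ (u ν - (N : ℤ) • z)) ≤
      ((Fintype.card G : ℝ) * (PA ν * PB ν))⁻¹ * (((X ν).filter fun c => c - τ ∈ Y' ν).card : ℝ) := by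
    intro ν
    have hprod : ∏ z ∈ (A' ν).image (· + zA ν) ∪ (B' ν).image (· + zB ν), σ (u ν - (N : ℤ) • z) =
        PA ν * PB ν := by
      rw [prod_tree (fun z => σ (u ν - (N : ℤ) • z)) hi (hA' ν) (hB' ν) (hz1 ν)]
      have e : ∀ z z₀ : Fin t → ℤ, u ν - (N : ℤ) • (z + z₀) = u ν - (N : ℤ) • z₀ - (N : ℤ) • z := by
        intro z z₀
        rw [smul_add, add_comm, sub_sub]
      simp only [e]
      rfl
    rw [hprod, div_eq_inv_mul]
    exact mul_le_mul_of_nonneg_left (hsub ν)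
      (inv_nonneg.2 (mul_pos hG (mul_pos (hPA0 ν) (hPB0 ν))).le)
  refine le_trans (Finset.sum_le_sum fun ν _ => hterm ν) ?_
  -- use the averaging
  have hτ' : (∑ ν, ((Fintype.card G : ℝ) * (PA ν * PB ν))⁻¹ *
      (((X ν).filter fun c => c - τ ∈ Y' ν).card : ℝ)) * Fintype.card G ≤
      ∑ ν, ((Fintype.card G : ℝ) * (PA ν * PB ν))⁻¹ * (((X ν).card : ℝ) * (Y ν).card) := by
    refine le_trans hτ (le_of_eq ?_)
    refine Finset.sum_congr rfl fun ν _ => ?_
    rw [hY'card]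
  have hfinal : (∑ ν, ((Fintype.card G : ℝ) * (PA ν * PB ν))⁻¹ * (((X ν).card : ℝ) * (Y ν).card)) =
      (∑ ν, a ν * b ν) * Fintype.card G := by
    rw [Finset.sum_mul]
    refine Finset.sum_congr rfl fun ν _ => ?_
    have h1 := (hPA0 ν).ne'
    have h2 := (hPB0 ν).ne'
    have h3 := hG.ne'
    simp only [ha, hb]
    field_simp
  rw [hfinal] at hτ'
  exact le_of_mul_le_mul_right hτ' hG

/-- The layering over families of trees of level `i`. -/
theorem layering_family (N : ℕ)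
    (S : (Fin t → ℤ) → Finset G) (σ : (Fin t → ℤ) → ℝ) (hσ : ∀ u, 0 < σ u)
    (hS : ∀ u, ((S u).card : ℝ) ≤ σ u * Fintype.card G) (i : ℕ) :
    ∀ {ι : Type} [Fintype ι] (u : ι → Fin t → ℤ) (A : ι → Finset (Fin t → ℤ)),
    (∀ ν, TreeShape t i (A ν)) →
    ∃ v : Fin t → G, ∑ ν, ((Uset N S v i (u ν)).card : ℝ) /
      ((Fintype.card G : ℝ) * ∏ z ∈ A ν, σ (u ν - (N : ℤ) • z)) ≤
      ((Fintype.card ι : ℝ) * 2 ^ i) ^ (2 ^ i) := by
  classical
  have hG : (0 : ℝ) < Fintype.card G := by exact_mod_cast Fintype.card_pos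
  induction i with
  | zero =>
    intro ι _ u A hA
    refine ⟨0, ?_⟩
    have hterm : ∀ ν, ((Uset N S 0 0 (u ν)).card : ℝ) /
        ((Fintype.card G : ℝ) * ∏ z ∈ A ν, σ (u ν - (N : ℤ) • z)) ≤ 1 := by
      intro ν
      rw [TreeShape.zero_eq (hA ν), Finset.prod_singleton, smul_zero, sub_zero]
      have hsub : Uset N S 0 0 (u ν) ⊆ S (u ν) := by
        intro c hc
        rw [mem_Uset] at hc
        have h := hc 0 (fun _ _ => rfl)
        simpa using h
      have h1 : ((Uset N S 0 0 (u ν)).card : ℝ) ≤ (S (u ν)).card := by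
        exact_mod_cast Finset.card_le_card hsub
      rw [div_le_one (mul_pos hG (hσ _))]
      have := hS (u ν)
      linarith [mul_comm (σ (u ν)) (Fintype.card G : ℝ)]
    refine le_trans (Finset.sum_le_sum fun ν _ => hterm ν) ?_
    simp
  | succ i ih =>
    intro ι _ u A hA
    rcases isEmpty_or_nonempty ι with hι | ⟨⟨ν₀⟩⟩
    · refine ⟨0, ?_⟩
      simp
    · have hi : i < t := (TreeShape.decomp (hA ν₀)).1
      choose _ A' B' zA zB hA' hB' hzA hzB hz1 hAeq using fun ν => TreeShape.decomp (hA ν)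
      obtain ⟨v, hv⟩ := ih (ι := ι × Bool)
        (fun p => cond p.2 (u p.1 - (N : ℤ) • zB p.1) (u p.1 - (N : ℤ) • zA p.1))
        (fun p => cond p.2 (B' p.1) (A' p.1))
        (by
          rintro ⟨ν, b⟩
          cases b
          · exact hA' ν
          · exact hB' ν)
      rw [Fintype.sum_prod_type] at hv
      simp only [Fintype.sum_bool] at hv
      obtain ⟨v', hv'⟩ := layering_step N S σ hσ hi u A' B' zA zB
        (fun ν => (hA' ν).support) (fun ν => (hB' ν).support) hzA hzB (fun ν => hz1 ν hi) v _ hv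
      refine ⟨v', ?_⟩
      have e : (((((Fintype.card (ι × Bool) : ℕ) : ℝ) * 2 ^ i) ^ 2 ^ i) ^ 2) =
          ((Fintype.card ι : ℝ) * 2 ^ (i + 1)) ^ 2 ^ (i + 1) := by
        rw [Fintype.card_prod, Fintype.card_bool, ← pow_mul, ← pow_succ]
        congr 1
        push_cast
        ring
      rw [← e]
      refine le_trans (le_of_eq ?_) hv'
      refine Finset.sum_congr rfl fun ν _ => ?_
      rw [hAeq ν]

end

/-- MODULE SA. Weighted layering over a forest of trees. -/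
theorem layering_tree {G : Type} [AddCommGroup G] [Fintype G] [DecidableEq G] (N : ℕ)
    (S : (Fin t → ℤ) → Finset G) (σ : (Fin t → ℤ) → ℝ) (hσ : ∀ u, 0 < σ u)
    (hS : ∀ u, ((S u).card : ℝ) ≤ σ u * Fintype.card G)
    {ι : Type} [Fintype ι] (u : ι → Fin t → ℤ) (A : ι → Finset (Fin t → ℤ))
    (hA : ∀ ν, TreeShape t t (A ν)) :
    ∃ v : Fin t → G, ∀ ν, ((Uset N S v t (u ν)).card : ℝ) ≤
      ((Fintype.card ι : ℝ) * 2 ^ t) ^ (2 ^ t) * (∏ z ∈ A ν, σ (u ν - (N : ℤ) • z)) *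
        Fintype.card G := by
  classical
  have hG : (0 : ℝ) < Fintype.card G := by exact_mod_cast Fintype.card_pos
  obtain ⟨v, hv⟩ := layering_family N S σ hσ hS t u A hA
  refine ⟨v, fun ν => ?_⟩
  have hP : 0 < ∏ z ∈ A ν, σ (u ν - (N : ℤ) • z) := Finset.prod_pos fun z _ => hσ _
  have h1 : ((Uset N S v t (u ν)).card : ℝ) /
      ((Fintype.card G : ℝ) * ∏ z ∈ A ν, σ (u ν - (N : ℤ) • z)) ≤
      ((Fintype.card ι : ℝ) * 2 ^ t) ^ (2 ^ t) := by
    refine le_trans ?_ hv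
    exact Finset.single_le_sum
      (f := fun ν => ((Uset N S v t (u ν)).card : ℝ) /
        ((Fintype.card G : ℝ) * ∏ z ∈ A ν, σ (u ν - (N : ℤ) • z)))
      (fun μ _ => div_nonneg (Nat.cast_nonneg _)
        (mul_pos hG (Finset.prod_pos fun z _ => hσ _)).le) (Finset.mem_univ ν)
  rw [div_le_iff₀ (mul_pos hG hP)] at h1
  linarith [h1]

end Vale.Agent.Lib.P230.Skew
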