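import Vale.Agent.Lib.P230.Skew.Defs
import Vale.Agent.Lib.P230.Skew.Box

/-! The tree of the two nearest layers: shape, periodicity and the first moment of its mass. -/

set_option autoImplicit false

open Finset

namespace Vale.Agent.Lib.P230.Skew

variable {t : ℕ}

namespace TreeAux

theorem Zset_succ_pos (Q : ℕ) (b : Fin t → Fin t → ℤ) (I : Fin t) (y : Fin t → ℤ) :
    Zset Q b (I.val + 1) y =
      (Zset Q b I.val (y - (y I / (Q : ℤ)) • gen Q b I)).image (· + Pi.single I (y I / (Q : ℤ))) ∪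
      (Zset Q b I.val (y - (y I / (Q : ℤ)) • gen Q b I - gen Q b I)).image
        (· + Pi.single I (y I / (Q : ℤ) + 1)) := by
  rw [Zset, dif_pos I.isLt]

theorem Zset_succ_neg (Q : ℕ) (b : Fin t → Fin t → ℤ) (i : ℕ) (hi : ¬ i < t) (y : Fin t → ℤ) :
    Zset Q b (i + 1) y = Zset Q b i y := by
  rw [Zset, dif_neg hi]

theorem Zset_support (Q : ℕ) (b : Fin t → Fin t → ℤ) :
    ∀ (i : ℕ) (y z : Fin t → ℤ), z ∈ Zset Q b i y → ∀ j : Fin t, i ≤ j.val → z j = 0 := by
  intro i
  induction i with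
  | zero =>
    intro y z hz j _
    have : z = 0 := by simpa [Zset] using hz
    simp [this]
  | succ i ih =>
    intro y z hz j hj
    by_cases hi : i < t
    · have hz' := hz
      rw [show i + 1 = (⟨i, hi⟩ : Fin t).val + 1 from rfl, Zset_succ_pos] at hz'
      have hne : j ≠ ⟨i, hi⟩ := by
        intro h
        rw [h] at hj
        simp at hj
      rcases mem_union.1 hz' with h | h
      · obtain ⟨z', hz'', rfl⟩ := mem_image.1 h
        have := ih _ _ hz'' j (by omega)
        simp [this, Pi.single_eq_of_ne hne]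
      · obtain ⟨z', hz'', rfl⟩ := mem_image.1 h
        have := ih _ _ hz'' j (by omega)
        simp [this, Pi.single_eq_of_ne hne]
    · have := j.isLt
      omega

theorem gen_self (Q : ℕ) (b : Fin t → Fin t → ℤ) (I : Fin t) : gen Q b I I = Q := by
  simp [gen]

theorem gen_of_lt (Q : ℕ) (b : Fin t → Fin t → ℤ) {j I : Fin t} (h : j < I) : gen Q b j I = 0 := by
  unfold gen
  rw [if_neg (ne_of_gt h), if_neg (not_lt_of_gt h)]

theorem lin_add_single (Q : ℕ) (b : Fin t → Fin t → ℤ) (z : Fin t → ℤ) (I : Fin t) (k : ℤ) :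
    lin Q b (z + Pi.single I k) = lin Q b z + k • gen Q b I := by
  classical
  unfold lin
  simp only [Pi.add_apply, add_smul, sum_add_distrib]
  congr 1
  rw [Finset.sum_eq_single I]
  · simp
  · intro j _ hj
    simp [Pi.single_eq_of_ne hj]
  · simp

theorem lin_apply_top (Q : ℕ) (b : Fin t → Fin t → ℤ) (z : Fin t → ℤ) (I : Fin t)
    (hz : ∀ j : Fin t, I.val ≤ j.val → z j = 0) : lin Q b z I = 0 := by
  unfold lin
  rw [Finset.sum_apply]
  refine Finset.sum_eq_zero fun j _ => ?_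
  simp only [Pi.smul_apply, smul_eq_mul]
  by_cases h : I.val ≤ j.val
  · rw [hz j h, zero_mul]
  · rw [gen_of_lt Q b (Fin.lt_def.2 (not_le.1 h)), mul_zero]

theorem hgt_succ (I : Fin t) (w : Fin t → ℤ) :
    hgt (I.val + 1) w = hgt I.val w + ((w I : ℤ) : ℝ) ^ 2 := by
  classical
  unfold hgt
  have h : ((w I : ℤ) : ℝ) ^ 2 = ∑ j : Fin t, if j = I then ((w j : ℤ) : ℝ) ^ 2 else 0 := by
    rw [Finset.sum_ite_eq' univ I]
    simp
  rw [h, ← sum_add_distrib]
  refine sum_congr rfl fun j _ => ?_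
  by_cases hj : j = I
  · subst hj
    simp
  · have hv : j.val ≠ I.val := fun e => hj (Fin.ext e)
    by_cases h1 : j.val < I.val
    · rw [if_pos h1, if_pos (by omega), if_neg hj, add_zero]
    · rw [if_neg h1, if_neg (by omega), if_neg hj, add_zero]

theorem hgt_congr (i : ℕ) {w w' : Fin t → ℤ} (h : ∀ j : Fin t, j.val < i → w j = w' j) :
    hgt i w = hgt i w' := by
  unfold hgt
  refine sum_congr rfl fun j _ => ?_
  by_cases hj : j.val < i
  · rw [if_pos hj, if_pos hj, h j hj]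
  · rw [if_neg hj, if_neg hj]

theorem Zset_dep (Q : ℕ) (b : Fin t → Fin t → ℤ) :
    ∀ (i : ℕ) (y y' : Fin t → ℤ), (∀ j : Fin t, j.val < i → y j = y' j) →
      Zset Q b i y = Zset Q b i y' := by
  intro i
  induction i with
  | zero => intro y y' _; simp [Zset]
  | succ i ih =>
    intro y y' h
    by_cases hi : i < t
    · rw [show i + 1 = (⟨i, hi⟩ : Fin t).val + 1 from rfl, Zset_succ_pos, Zset_succ_pos]
      have hI : y ⟨i, hi⟩ = y' ⟨i, hi⟩ := h _ (by simp)
      rw [hI]
      have e1 : Zset Q b (⟨i, hi⟩ : Fin t).val (y - (y' ⟨i, hi⟩ / (Q : ℤ)) • gen Q b ⟨i, hi⟩) =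
          Zset Q b (⟨i, hi⟩ : Fin t).val (y' - (y' ⟨i, hi⟩ / (Q : ℤ)) • gen Q b ⟨i, hi⟩) := by
        apply ih
        intro j hj
        simp only [Pi.sub_apply, Pi.smul_apply, h j (by simpa using (by omega : j.val < i + 1))]
      have e2 : Zset Q b (⟨i, hi⟩ : Fin t).val
            (y - (y' ⟨i, hi⟩ / (Q : ℤ)) • gen Q b ⟨i, hi⟩ - gen Q b ⟨i, hi⟩) =
          Zset Q b (⟨i, hi⟩ : Fin t).val
            (y' - (y' ⟨i, hi⟩ / (Q : ℤ)) • gen Q b ⟨i, hi⟩ - gen Q b ⟨i, hi⟩) := by
        apply ih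
        intro j hj
        simp only [Pi.sub_apply, Pi.smul_apply, h j (by simpa using (by omega : j.val < i + 1))]
      rw [e1, e2]
    · rw [Zset_succ_neg Q b i hi, Zset_succ_neg Q b i hi]
      exact ih y y' fun j hj => h j (by omega)

theorem Mass_dep (Q : ℕ) (b : Fin t → Fin t → ℤ) (μ : ℝ) (i : ℕ) {y y' : Fin t → ℤ}
    (h : ∀ j : Fin t, j.val < i → y j = y' j) : Mass Q b μ i y = Mass Q b μ i y' := by
  unfold Mass
  rw [Zset_dep Q b i y y' h]
  refine sum_congr rfl fun z _ => ?_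
  rw [hgt_congr i (w := y - lin Q b z) (w' := y' - lin Q b z)]
  intro j hj
  simp [h j hj]

/-- The reduced height. -/
noncomputable def yh (Q : ℕ) (b : Fin t → Fin t → ℤ) (I : Fin t) (y : Fin t → ℤ) : Fin t → ℤ :=
  y - (y I / (Q : ℤ)) • gen Q b I

theorem Mass_rec (Q : ℕ) (b : Fin t → Fin t → ℤ) (μ : ℝ) (I : Fin t) (y : Fin t → ℤ) :
    Mass Q b μ (I.val + 1) y =
      Real.exp (-(μ * ((yh Q b I y I : ℤ) : ℝ) ^ 2)) * Mass Q b μ I.val (yh Q b I y) +
      Real.exp (-(μ * (((yh Q b I y I : ℤ) : ℝ) - (Q : ℝ)) ^ 2)) *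
        Mass Q b μ I.val (yh Q b I y - gen Q b I) := by
  classical
  have hdisj : Disjoint
      ((Zset Q b I.val (y - (y I / (Q : ℤ)) • gen Q b I)).image (· + Pi.single I (y I / (Q : ℤ))))
      ((Zset Q b I.val (y - (y I / (Q : ℤ)) • gen Q b I - gen Q b I)).image
        (· + Pi.single I (y I / (Q : ℤ) + 1))) := by
    rw [Finset.disjoint_left]
    intro z h1 h2
    obtain ⟨z1, hz1, rfl⟩ := mem_image.1 h1
    obtain ⟨z2, hz2, e⟩ := mem_image.1 h2
    have h3 := congrFun e I
    simp only [Pi.add_apply, Pi.single_eq_same, Zset_support Q b _ _ _ hz1 I le_rfl,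
      Zset_support Q b _ _ _ hz2 I le_rfl] at h3
    omega
  unfold Mass
  rw [Zset_succ_pos, sum_union hdisj, sum_image (fun _ _ _ _ h => add_right_cancel h),
    sum_image (fun _ _ _ _ h => add_right_cancel h), mul_sum, mul_sum]
  unfold yh
  congr 1
  · refine sum_congr rfl fun z hz => ?_
    have hz0 := Zset_support Q b _ _ _ hz
    have e : y - lin Q b (z + Pi.single I (y I / (Q : ℤ))) =
        y - (y I / (Q : ℤ)) • gen Q b I - lin Q b z := by
      rw [lin_add_single]
      abel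
    rw [e, hgt_succ, ← Real.exp_add]
    congr 1
    simp only [Pi.sub_apply, lin_apply_top Q b z I hz0, sub_zero]
    ring
  · refine sum_congr rfl fun z hz => ?_
    have hz0 := Zset_support Q b _ _ _ hz
    have e : y - lin Q b (z + Pi.single I (y I / (Q : ℤ) + 1)) =
        y - (y I / (Q : ℤ)) • gen Q b I - gen Q b I - lin Q b z := by
      rw [lin_add_single, add_smul, one_smul]
      abel
    rw [e, hgt_succ, ← Real.exp_add]
    congr 1
    have e2 : ((y - (y I / (Q : ℤ)) • gen Q b I - gen Q b I - lin Q b z) I : ℤ) =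
        (y - (y I / (Q : ℤ)) • gen Q b I) I - (Q : ℤ) := by
      simp only [Pi.sub_apply, lin_apply_top Q b z I hz0, sub_zero, gen_self]
    rw [e2]
    push_cast
    ring

end TreeAux

open TreeAux

/-- MODULE S2a (Tree.lean). -/
theorem Zset_tree (Q : ℕ) (b : Fin t → Fin t → ℤ) (i : ℕ) (hi : i ≤ t) (y : Fin t → ℤ) :
    TreeShape t i (Zset Q b i y) := by
  induction i generalizing y with
  | zero => simpa [Zset] using TreeShape.base
  | succ i ih =>
    have hit : i < t := by omega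
    rw [show i + 1 = (⟨i, hit⟩ : Fin t).val + 1 from rfl, Zset_succ_pos]
    refine TreeShape.step i hit _ _ _ _ (ih (by omega) _) (ih (by omega) _) ?_ ?_ ?_
    · intro j hj
      refine Pi.single_eq_of_ne ?_ _
      intro h
      rw [h] at hj
      simp at hj
    · intro j hj
      refine Pi.single_eq_of_ne ?_ _
      intro h
      rw [h] at hj
      simp at hj
    · simp

/-- MODULE S2b (Tree.lean). `Mass` is periodic. Both `Zset` and the heights only see coordinates `< i`. For the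
top generator `j = i`: `k` increases by one and `yh` is the same; for `j < i` use induction, `k` is the same. -/
theorem Mass_per {Q : ℕ} (hQ : 0 < Q) (b : Fin t → Fin t → ℤ) (μ : ℝ) (i : ℕ) (hi : i ≤ t) :
    Per Q b i (Mass Q b μ i) := by
  refine ⟨fun y y' h => Mass_dep Q b μ i h, ?_⟩
  induction i with
  | zero => intro j hj; omega
  | succ i ih =>
    have hit : i < t := by omega
    have ih' := ih (by omega)
    intro j hj y
    have hrec := fun y => Mass_rec Q b μ (⟨i, hit⟩ : Fin t) y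
    simp only at hrec
    rw [hrec, hrec]
    by_cases hji : j.val = i
    · have hj' : j = ⟨i, hit⟩ := Fin.ext hji
      subst hj'
      have hQ' : (Q : ℤ) ≠ 0 := by exact_mod_cast hQ.ne'
      have e : yh Q b ⟨i, hit⟩ (y + gen Q b ⟨i, hit⟩) = yh Q b ⟨i, hit⟩ y := by
        unfold yh
        have e1 : (y + gen Q b ⟨i, hit⟩) ⟨i, hit⟩ / (Q : ℤ) = y ⟨i, hit⟩ / (Q : ℤ) + 1 := by
          rw [Pi.add_apply, gen_self]
          have := Int.add_mul_ediv_right (y ⟨i, hit⟩) 1 hQ'
          rwa [one_mul] at this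
        rw [e1, add_smul, one_smul]
        abel
      rw [e]
    · have hlt : j < ⟨i, hit⟩ := Fin.lt_def.2 (by simp only; omega)
      have e : yh Q b ⟨i, hit⟩ (y + gen Q b j) = yh Q b ⟨i, hit⟩ y + gen Q b j := by
        unfold yh
        have e1 : (y + gen Q b j) ⟨i, hit⟩ = y ⟨i, hit⟩ := by
          rw [Pi.add_apply, gen_of_lt Q b hlt, add_zero]
        rw [e1]
        abel
      have e2 : (yh Q b ⟨i, hit⟩ y + gen Q b j) ⟨i, hit⟩ = yh Q b ⟨i, hit⟩ y ⟨i, hit⟩ := by
        rw [Pi.add_apply, gen_of_lt Q b hlt, add_zero]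
      have hjlt : j.val < i := by
        have := Fin.lt_def.1 hlt
        simpa using this
      have e3 : yh Q b ⟨i, hit⟩ y + gen Q b j - gen Q b ⟨i, hit⟩ =
          yh Q b ⟨i, hit⟩ y - gen Q b ⟨i, hit⟩ + gen Q b j := by abel
      rw [e, e2, ih' j hjlt, e3, ih' j hjlt]

/-- MODULE S2c (Tree.lean). `Mass` recursion inside the box. Elements of `Zset` at level `i` vanish at coordinates
`≥ i`, `gen j` vanishes at `I` for `j < I`, so `(y - lin (z + e_I k)) I = y I - k Q`. -/
theorem Mass_succ {Q : ℕ} (hQ : 0 < Q) (b : Fin t → Fin t → ℤ) (μ : ℝ) (I : Fin t) (y : Fin t → ℤ)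
    (h0 : 0 ≤ y I) (h1 : y I < Q) :
    Mass Q b μ (I.val + 1) y =
      Real.exp (-(μ * ((y I : ℤ) : ℝ) ^ 2)) * Mass Q b μ I.val y +
      Real.exp (-(μ * ((Q : ℝ) - ((y I : ℤ) : ℝ)) ^ 2)) * Mass Q b μ I.val (y - gen Q b I) := by
  have e : yh Q b I y = y := by
    unfold yh
    rw [Int.ediv_eq_zero_of_lt h0 h1, zero_smul, sub_zero]
  rw [Mass_rec, e]
  have e2 : ((y I : ℤ) : ℝ) - (Q : ℝ) = -((Q : ℝ) - ((y I : ℤ) : ℝ)) := by ring
  rw [e2, neg_sq]

/-- MODULE S2d (Tree.lean). The mass does not see the shears at levels `≥ i`. -/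
theorem Mass_congr {Q : ℕ} (b b' : Fin t → Fin t → ℤ) (μ : ℝ) (i : ℕ)
    (h : ∀ j : Fin t, j.val < i → b j = b' j) (y : Fin t → ℤ) :
    Mass Q b μ i y = Mass Q b' μ i y := by
  have hgen : ∀ j : Fin t, j.val < i → gen Q b j = gen Q b' j := by
    intro j hj
    unfold gen
    rw [h j hj]
  have hZ : ∀ (i' : ℕ), i' ≤ i → ∀ y, Zset Q b i' y = Zset Q b' i' y := by
    intro i'
    induction i' with
    | zero => intro _ y; simp [Zset]
    | succ i' ih =>
      intro hi' y
      by_cases hit : i' < t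
      · rw [show i' + 1 = (⟨i', hit⟩ : Fin t).val + 1 from rfl, Zset_succ_pos, Zset_succ_pos]
        rw [hgen ⟨i', hit⟩ (by simpa using (by omega : i' < i))]
        rw [ih (by omega), ih (by omega)]
      · rw [Zset_succ_neg Q b i' hit, Zset_succ_neg Q b' i' hit]
        exact ih (by omega) y
  unfold Mass
  rw [hZ i le_rfl]
  refine sum_congr rfl fun z hz => ?_
  have hlin : lin Q b z = lin Q b' z := by
    unfold lin
    refine sum_congr rfl fun j _ => ?_
    by_cases hj : j.val < i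
    · rw [hgen j hj]
    · rw [Zset_support Q b' i y z hz j (not_lt.1 hj), zero_smul, zero_smul]
  rw [hlin]

/-- MODULE S2e (Tree.lean). First moment: `Σ_(y ∈ box (i+1)) Mass (i+1) y = Σ_x (p x + p̄ x) Σ_(y' ∈ box i) Mass i y'`
by `Mass_succ` and `sum_box_sub` (on `y' ↦ Mass i (y' - gen)`, note `Mass i` only sees coordinates `< i`). -/
theorem Mass_mean {Q : ℕ} (hQ : 0 < Q) (b : Fin t → Fin t → ℤ) (μ : ℝ) (i : ℕ) (hi : i ≤ t) :
    ∑ y ∈ box Q i, Mass Q b μ i y = ((Q : ℝ) * Emean Q μ) ^ i := by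
  induction i with
  | zero =>
    rw [box_zero, sum_singleton, pow_zero]
    simp [Mass, Zset, hgt]
  | succ i ih =>
    have hit : i < t := by omega
    have ih' := ih (by omega)
    have hper := Mass_per hQ b μ i (by omega)
    have hQ' : (Q : ℝ) ≠ 0 := by exact_mod_cast hQ.ne'
    have hs := sum_box_succ (Q := Q) hit (Mass Q b μ (i + 1))
    rw [hs]
    have hinner : ∀ x ∈ Ico (0 : ℤ) Q, ∑ y' ∈ box Q i, Mass Q b μ (i + 1) (y' + Pi.single ⟨i, hit⟩ x) =
        (Real.exp (-(μ * ((x : ℤ) : ℝ) ^ 2)) + Real.exp (-(μ * ((Q : ℝ) - ((x : ℤ) : ℝ)) ^ 2))) *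
          ((Q : ℝ) * Emean Q μ) ^ i := by
      intro x hx
      obtain ⟨hx0, hx1⟩ := mem_Ico.1 hx
      have hterm : ∀ y' ∈ box Q i, Mass Q b μ (i + 1) (y' + Pi.single ⟨i, hit⟩ x) =
          Real.exp (-(μ * ((x : ℤ) : ℝ) ^ 2)) * Mass Q b μ i y' +
          Real.exp (-(μ * ((Q : ℝ) - ((x : ℤ) : ℝ)) ^ 2)) * Mass Q b μ i (y' + (- gen Q b ⟨i, hit⟩)) := by
        intro y' hy'
        have hy0 : y' ⟨i, hit⟩ = 0 := ((mem_box.1 hy') ⟨i, hit⟩).2 (by simp)
        have hval : ((y' + Pi.single (⟨i, hit⟩ : Fin t) x : Fin t → ℤ)) (⟨i, hit⟩ : Fin t) = x := by simp [hy0]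
        have hs := Mass_succ hQ b μ (⟨i, hit⟩ : Fin t) (y' + Pi.single ⟨i, hit⟩ x)
          (by rw [hval]; exact hx0) (by rw [hval]; exact hx1)
        simp only [hval] at hs
        rw [hs]
        have hd1 : Mass Q b μ i (y' + Pi.single ⟨i, hit⟩ x) = Mass Q b μ i y' := by
          apply Mass_dep
          intro j hj
          have : j ≠ ⟨i, hit⟩ := by
            intro h
            rw [h] at hj
            simp at hj
          simp [Pi.single_eq_of_ne this]
        have hd2 : Mass Q b μ i (y' + Pi.single ⟨i, hit⟩ x - gen Q b ⟨i, hit⟩) =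
            Mass Q b μ i (y' + (- gen Q b ⟨i, hit⟩)) := by
          apply Mass_dep
          intro j hj
          have : j ≠ ⟨i, hit⟩ := by
            intro h
            rw [h] at hj
            simp at hj
          simp [Pi.single_eq_of_ne this, sub_eq_add_neg]
        rw [hd1, hd2]
      rw [sum_congr rfl hterm, sum_add_distrib, ← mul_sum, ← mul_sum,
        sum_box_add hQ (by omega) b _ hper, ih', add_mul]
    rw [sum_congr rfl hinner, ← sum_mul]
    have hsumx : ∑ x ∈ Ico (0 : ℤ) Q, (Real.exp (-(μ * ((x : ℤ) : ℝ) ^ 2)) +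
          Real.exp (-(μ * ((Q : ℝ) - ((x : ℤ) : ℝ)) ^ 2))) = (Q : ℝ) * Emean Q μ := by
      unfold Emean
      rw [← mul_assoc, mul_one_div_cancel hQ', one_mul]
      refine Finset.sum_nbij' (fun x : ℤ => x.toNat) (fun n : ℕ => (n : ℤ)) ?_ ?_ ?_ ?_ ?_
      · intro x hx
        obtain ⟨hx0, hx1⟩ := mem_Ico.1 hx
        exact mem_range.2 (by omega)
      · intro n hn
        have := mem_range.1 hn
        exact mem_Ico.2 ⟨by omega, by omega⟩
      · intro x hx
        obtain ⟨hx0, _⟩ := mem_Ico.1 hx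
        exact Int.toNat_of_nonneg hx0
      · intro n _
        simp
      · intro x hx
        obtain ⟨hx0, _⟩ := mem_Ico.1 hx
        have e : ((x.toNat : ℕ) : ℝ) = ((x : ℤ) : ℝ) := by
          have := Int.toNat_of_nonneg hx0
          exact_mod_cast this
        rw [e]
    rw [hsumx, pow_succ]
    ring

end Vale.Agent.Lib.P230.Skew
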