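import Vale.Agent.Lib.P230.Skew.Defs
import Vale.Agent.Lib.P230.Lin.Defs

/-!
# P230 skew route: statements of the modules (stubs, to be replaced by separate files).
Each module goes in its own file `Vale/Agent/Lib/P230/Skew/<Module>.lean`, statement exact.
-/

set_option autoImplicit false

open MeasureTheory Finset
open scoped ENNReal Matrix

namespace Vale.Agent.Lib.P230.Skew

open Vale.Agent.Lib.P230.Lin

variable {t : ℕ}

/-- MODULE SA (Layering.lean). Weighted layering over a forest of trees. Proof: induction on the level `i`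
of the statement for arbitrary finite families `(ι, u, A)` with `TreeShape t i (A ν)`:
`∃ v, Σ_ν |U_i (u ν)| / (|G| Π_(z ∈ A ν) σ (u ν - N z)) ≤ (card ι * 2^i)^(2^i)`. Step: family `ι × Bool`
with heights `u ν - N zA`, `u ν - N zB` and sets `A`, `B`; `U_(i+1) (u) ⊆ (U_i (u - N zA) + w zA) ∩ (U_i (u - N zB) + w zB)`,
where `w z = Σ z j • v j`; `U_i` does not depend on `v j`, `j ≥ i`; choose `v_i` by weighted averaging
(`exists_shift_w` in Ball/LayerLeaf.lean): average of `|X ∩ (Y + v)|` is `|X||Y|/|G|`, the shift differs by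
`v_i` since `zB i = zA i + 1`. Leaves of `A` have coordinate `i` zero so the two images are disjoint. -/
theorem layering_tree {G : Type} [AddCommGroup G] [Fintype G] [DecidableEq G] (N : ℕ)
    (S : (Fin t → ℤ) → Finset G) (σ : (Fin t → ℤ) → ℝ) (hσ : ∀ u, 0 < σ u)
    (hS : ∀ u, ((S u).card : ℝ) ≤ σ u * Fintype.card G)
    {ι : Type} [Fintype ι] (u : ι → Fin t → ℤ) (A : ι → Finset (Fin t → ℤ))
    (hA : ∀ ν, TreeShape t t (A ν)) :
    ∃ v : Fin t → G, ∀ ν, ((Uset N S v t (u ν)).card : ℝ) ≤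
      ((Fintype.card ι : ℝ) * 2 ^ t) ^ (2 ^ t) * (∏ z ∈ A ν, σ (u ν - (N : ℤ) • z)) *
        Fintype.card G := by
  sorry

/-- MODULE S1a (Box.lean). A periodic function sums over every translate of the reflected box to the same
value. Induction on `i`: reduce coordinate `i` of `y - x` mod `Q`, use `per` for `gen i`, then the induction
hypothesis for the function of the lower coordinates. -/
theorem sum_box_sub {Q i : ℕ} (hQ : 0 < Q) (hi : i ≤ t) (b : Fin t → Fin t → ℤ) (f : (Fin t → ℤ) → ℝ)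
    (hf : Per Q b i f) (y : Fin t → ℤ) :
    ∑ x ∈ box Q i, f (y - x) = ∑ x ∈ box Q i, f x := by
  sorry

/-- MODULE S1a' (Box.lean). Same for translates of the box (apply `sum_box_sub` twice, to `w ↦ f (y - w)` and to `f`). -/
theorem sum_box_add {Q i : ℕ} (hQ : 0 < Q) (hi : i ≤ t) (b : Fin t → Fin t → ℤ) (f : (Fin t → ℤ) → ℝ)
    (hf : Per Q b i f) (y : Fin t → ℤ) :
    ∑ x ∈ box Q i, f (x + y) = ∑ x ∈ box Q i, f x := by
  sorry

/-- MODULE S1b (Box.lean). Reduction to the box by generators below `i`. -/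
theorem exists_box_rep {Q i : ℕ} (hQ : 0 < Q) (hi : i ≤ t) (b : Fin t → Fin t → ℤ) (y : Fin t → ℤ) :
    ∃ z : Fin t → ℤ, (∀ j : Fin t, i ≤ j.val → z j = 0) ∧
      ∀ j : Fin t, j.val < i → 0 ≤ (y - lin Q b z) j ∧ (y - lin Q b z) j < Q := by
  sorry

/-- MODULE S2a (Tree.lean). -/
theorem Zset_tree (Q : ℕ) (b : Fin t → Fin t → ℤ) (i : ℕ) (hi : i ≤ t) (y : Fin t → ℤ) :
    TreeShape t i (Zset Q b i y) := by
  sorry

/-- MODULE S2b (Tree.lean). `Mass` is periodic. Both `Zset` and the heights only see coordinates `< i`. For the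
top generator `j = i`: `k` increases by one and `yh` is the same; for `j < i` use induction, `k` is the same. -/
theorem Mass_per {Q : ℕ} (hQ : 0 < Q) (b : Fin t → Fin t → ℤ) (μ : ℝ) (i : ℕ) (hi : i ≤ t) :
    Per Q b i (Mass Q b μ i) := by
  sorry

/-- MODULE S2c (Tree.lean). `Mass` recursion inside the box. Elements of `Zset` at level `i` vanish at coordinates
`≥ i`, `gen j` vanishes at `I` for `j < I`, so `(y - lin (z + e_I k)) I = y I - k Q`. -/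
theorem Mass_succ {Q : ℕ} (hQ : 0 < Q) (b : Fin t → Fin t → ℤ) (μ : ℝ) (I : Fin t) (y : Fin t → ℤ)
    (h0 : 0 ≤ y I) (h1 : y I < Q) :
    Mass Q b μ (I.val + 1) y =
      Real.exp (-(μ * ((y I : ℤ) : ℝ) ^ 2)) * Mass Q b μ I.val y +
      Real.exp (-(μ * ((Q : ℝ) - ((y I : ℤ) : ℝ)) ^ 2)) * Mass Q b μ I.val (y - gen Q b I) := by
  sorry

/-- MODULE S2d (Tree.lean). The mass does not see the shears at levels `≥ i`. -/
theorem Mass_congr {Q : ℕ} (b b' : Fin t → Fin t → ℤ) (μ : ℝ) (i : ℕ)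
    (h : ∀ j : Fin t, j.val < i → b j = b' j) (y : Fin t → ℤ) :
    Mass Q b μ i y = Mass Q b' μ i y := by
  sorry

/-- MODULE S2e (Tree.lean). First moment: `Σ_(y ∈ box (i+1)) Mass (i+1) y = Σ_x (p x + p̄ x) Σ_(y' ∈ box i) Mass i y'`
by `Mass_succ` and `sum_box_sub` (on `y' ↦ Mass i (y' - gen)`, note `Mass i` only sees coordinates `< i`). -/
theorem Mass_mean {Q : ℕ} (hQ : 0 < Q) (b : Fin t → Fin t → ℤ) (μ : ℝ) (i : ℕ) (hi : i ≤ t) :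
    ∑ y ∈ box Q i, Mass Q b μ i y = ((Q : ℝ) * Emean Q μ) ^ i := by
  sorry

/-- MODULE S3 (Shears.lean). Choice of the shears by averaging. `W_i = Q^(-i) Σ_(box i) Mass²`.
`Mass (i+1) (y', x) = p x Mass i y' + p̄ x Mass i (y' - β)` where `β` is the shear of level `i`. Averaging over
`β ∈ box i` (`sum_box_sub`): `avg_β W_(i+1) = Emean (2 μ) W_i + Bmean μ (Emean μ)^(2 i)`. Hence with `W_i ≤ 2 E^(2i)`,
some `β` has `W_(i+1) ≤ (3/4) E² 2 E^(2i) + (1/2) E² E^(2i) ≤ 2 E^(2(i+1))`. Use `Mass_congr` for the update. -/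
theorem exists_shears {Q : ℕ} (hQ : 0 < Q) (μ : ℝ) (h2 : Emean Q (2 * μ) ≤ (3 / 4) * Emean Q μ ^ 2)
    (hB : Bmean Q μ ≤ (1 / 2) * Emean Q μ ^ 2) (i₀ : ℕ) (hi : i₀ ≤ t) :
    ∃ b : Fin t → Fin t → ℤ, (∀ i j, 0 ≤ b i j ∧ b i j < Q) ∧
      ∑ y ∈ box Q i₀, Mass Q b μ i₀ y ^ 2 ≤ 2 * (Q : ℝ) ^ i₀ * Emean Q μ ^ (2 * i₀) := by
  sorry

/-- MODULE S4 (Density.lean). Paley-Zygmund and Markov. Let `E = Emean Q μ`, `E₋ = Emean Q (μ-θ)`, `E₊ = Emean Q (μ+θ)`.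
Density of `Mass μ ≥ E^i/2` is at least `1/8` (Cauchy-Schwarz, `Mass_mean`, hypothesis on the second moment); density of
`Mass (μ-θ) > 32 E₋^i` and of `Mass (μ+θ) > 32 E₊^i` are at most `1/32` (Markov, `Mass_mean`). On the remaining set,
of density `≥ 1/16`: the leaves with `hgt > R₂` have `exp(-μ hgt) ≤ exp(-θ R₂) exp(-(μ-θ) hgt)`, total `≤ E^i/8` by `hH`; the
leaves with `hgt < R₁` have `exp(-μ hgt) ≤ exp(θ R₁) exp(-(μ+θ) hgt)`, total `≤ E^i/8` by `hL`; the other leaves have mass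
`≥ E^i/4` and each weighs at most `exp(-μ R₁)`. Take `A = Zset Q b i y` (`Zset_tree`). -/
theorem good_density {Q : ℕ} (hQ : 0 < Q) (b : Fin t → Fin t → ℤ) (μ θ R₁ R₂ : ℝ) (hθ : 0 < θ) (hμ : 0 ≤ μ)
    (i : ℕ) (hi : i ≤ t) (hE : 0 < Emean Q μ)
    (hW : ∑ y ∈ box Q i, Mass Q b μ i y ^ 2 ≤ 2 * (Q : ℝ) ^ i * Emean Q μ ^ (2 * i))
    (hH : 256 * Real.exp (-(θ * R₂)) * Emean Q (μ - θ) ^ i ≤ Emean Q μ ^ i)
    (hL : 256 * Real.exp (θ * R₁) * Emean Q (μ + θ) ^ i ≤ Emean Q μ ^ i) :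
    open Classical in
    (Q : ℝ) ^ i / 16 ≤ (((box Q i).filter fun y =>
      Good Q b i ((1 / 4) * Emean Q μ ^ i * Real.exp (μ * R₁)) R₂ y).card : ℝ) := by
  sorry

/-- MODULE S5 (Squaring.lean). The bad set squares at each level. At level `i+1`: if `Good i T₀ r y'` or
`Good i T₀ r (y' - gen i)` then `Good (i+1) T₀ (r + Q²) (y', x)` for every `x ∈ [0,Q)`: the leaves of the good child (with any tree for the
other child, e.g. built by `TreeShape.step` from the trivial ones, `zA = 0`, `zB = e_i`) cost at most `Q²` more at coordinate `i`.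
So the bad set of level `i+1` in `box (i+1)` is contained in `{(y', x) : y' ∈ Bad, y' - β ∈ Bad}`; `sum_box_sub` applied to the
indicator of `Bad` (periodic, `Good` is periodic: translate `A` by `e_j`, a `TreeShape` stays one) and averaging over `β ∈ box i`
give a shear `β` with density of the new bad set at most the square of the density of `Bad`. After `k` steps the density
is at most `(1-π)^(2^k)`, below `Q^(-(i+k))`, so the bad set in the box is empty; conclude for all `y` by `exists_box_rep`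
and periodicity. Shears of levels `< i` are unchanged. -/
theorem squaring {Q : ℕ} (hQ : 0 < Q) (b : Fin t → Fin t → ℤ) (hb : ∀ i j, 0 ≤ b i j ∧ b i j < Q) (i k : ℕ)
    (hik : i + k ≤ t) (T₀ r π : ℝ) (hπ0 : 0 < π) (hπ1 : π ≤ 1)
    (hgood : open Classical in (π * (Q : ℝ) ^ i ≤ (((box Q i).filter fun y => Good Q b i T₀ r y).card : ℝ)))
    (hsmall : (1 - π) ^ (2 ^ k) * (Q : ℝ) ^ (i + k) < 1) :
    ∃ b' : Fin t → Fin t → ℤ, (∀ j : Fin t, j.val < i → b' j = b j) ∧ (∀ i j, 0 ≤ b' i j ∧ b' i j < Q) ∧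
      ∀ y, Good Q b' (i + k) T₀ (r + (k : ℝ) * (Q : ℝ) ^ 2) y := by
  sorry

/-- MODULE S7 (Numerics.lean). All sums over `x < 500`, `Q = 500`, unit `c = 1/200`, `μ = (49/100) c²`,
`θ = (1/1000) c²`. True values: `Emean μ = 0.99933`, `Emean (2μ)/Emean μ² = .72`, `Bmean μ/Emean μ² = .285`, mean of
`u² = (c x)²` under the tilt `= .9249`. So `exp(-(1/1000)(955/1000)) Emean (μ-θ) / Emean μ = 1 - 2.9e-5`,
`exp((1/1000)(91/100)) Emean (μ+θ) / Emean μ = 1 - 1.4e-5`, `Emean μ exp((49/100)(91/100)) = 1.5609`. -/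
theorem skew_numerics :
    let Q : ℕ := 500
    let μ : ℝ := 49 / 4000000
    let θ : ℝ := 1 / 40000000
    Emean Q (2 * μ) ≤ (3 / 4) * Emean Q μ ^ 2 ∧ Bmean Q μ ≤ (1 / 2) * Emean Q μ ^ 2 ∧
    Real.exp (-((1 / 1000) * (955 / 1000))) * Emean Q (μ - θ) < Emean Q μ ∧
    Real.exp ((1 / 1000) * (91 / 100)) * Emean Q (μ + θ) < Emean Q μ ∧
    (155 / 100 : ℝ) < Emean Q μ * Real.exp ((49 / 100) * (91 / 100)) := by
  sorry

/-- MODULE S6 (Height.lean). The lattice of the window coordinates: `T = c Λ`, `Λ j i = gen Q b i j`, `c = 1/200`, `Q = 500`,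
upper triangular, diagonal `cQ = 5/2`. For large `t` take `k` least with `2^k/16 ≥ t log 500 + 1`, `i₀ = t - k`; `exists_shears`, `good_density`
with `R₁ = (91/100) i₀ / c²`, `R₂ = (955/1000) i₀ / c²` (hypotheses `hH`, `hL` from `skew_numerics` for large `i₀`), `squaring` with `π = 1/16`.
This gives `∀ y, Good Q b t T₀ R y`, with `T₀ = (1/4) (Emean μ exp((49/100)(91/100)))^i₀ ≥ (155/100)^t` for large `t`, and `c² R ≤ (955/1000) t + k (5/2)² ≤ .957 t`.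
For real `a` let `y i = ⌊(T a) i / c⌋`; `‖T (a - z)‖ ≤ c ‖y - Λ z‖ + c √t`, and `(√.957 + 1/200)² ≤ 97/100`. -/
theorem height_lattice : ∃ t₀ : ℕ, ∀ t ≥ t₀, ∃ T : Matrix (Fin t) (Fin t) ℝ,
    T.det = (5 / 2 : ℝ) ^ t ∧ (∀ i j, |T i j| ≤ 5 / 2) ∧
    ∀ a : Fin t → ℝ, ∃ A : Finset (Fin t → ℤ), TreeShape t t A ∧
      (155 / 100 : ℝ) ^ t ≤ ((A.filter fun z =>
        ∑ i, (T.mulVec (fun j => a j - (z j : ℝ)) i) ^ 2 ≤ (97 / 100) * (t : ℝ)).card : ℝ) := by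
  sorry

/-- MODULE SB (Cover.lean). Copy of `Ball.abstract_cover2`/`erosion_cover2` (Ball/Erosion2.lean), simpler: `e i / δ ≤ 1 / W` instead of `1 / 2`; the void at
height `u` is `Uset`, candidates `(m0 - m - a, q + z)` for the `z` with `c - w z ∉ S (u - N z)`, no box on the height in `hA`, `hvoid`;
`layering_tree` with `ι = Fin t → Fin N`, `u ν = fun i => ν i`, `A ν = Tree (u ν)`. -/
theorem abstract_cover3 {d t : ℕ} {G : Type} [AddCommGroup G] [Fintype G]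
    (K' : Set ((Fin d → ℝ) × (Fin t → ℝ))) (hK' : Convex ℝ K') (δ : ℝ) (hδ0 : 0 < δ) (hδ1 : δ ≤ 1 / 4)
    (N : ℕ) (hN0 : 0 < N) (W : ℝ) (hW : 0 < W) (hN : W ≤ δ * N) (cy : Fin d → ℝ) (hc : (cy, (0 : Fin t → ℝ)) ∈ K')
    (hwin : ∀ x : Fin t → ℝ, (∀ i, 0 ≤ x i ∧ x i ≤ 1 / W) → ∃ y, (y, x) ∈ K')
    (C₁ : Set (Fin d → ℝ)) (hsym : ∀ a ∈ C₁, -a ∈ C₁)
    (hC : ∀ a ∈ C₁, ∀ a' ∈ C₁, (cy + δ⁻¹ • (a + a'), (0 : Fin t → ℝ)) ∈ K')
    (R : ℕ) (hR : 0 < R) (htiny : ∀ τ : Fin d → ℝ, (∀ i, 0 ≤ τ i ∧ τ i ≤ 1 / (R : ℝ)) → τ ∈ C₁)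
    (h : (Fin d → ℤ) →+ G) (hsurj : Function.Surjective h) (A : (Fin t → ℤ) → Finset (Fin d → ℤ))
    (hA : ∀ u : Fin t → ℤ, ∀ a ∈ A u,
      ((1 - 2 * δ)⁻¹ • ((fun i => (a i : ℝ) / R) - (2 * δ) • cy),
        (1 - 2 * δ)⁻¹ • (fun i => (u i : ℝ) / N)) ∈ K')
    (Y₁ : Finset (Fin d → ℤ)) (hY₁ : ∀ m ∈ Y₁, (fun i => (m i : ℝ) / R) ∈ C₁)
    (hinj : Set.InjOn h Y₁) (σ : (Fin t → ℤ) → ℝ) (hσ : ∀ u, 0 < σ u)
    (hvoid : open Classical in ∀ u : Fin t → ℤ,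
      (((univ \ (A u).image h : Finset G)).card : ℝ) ≤ σ u * Fintype.card G)
    (Tree : (Fin t → ℤ) → Finset (Fin t → ℤ)) (hTree : ∀ u, TreeShape t t (Tree u))
    (hcount : ∀ u : Fin t → ℤ, (∀ i, 0 ≤ u i ∧ u i < (N : ℤ)) →
      ((N : ℝ) ^ t * 2 ^ t) ^ (2 ^ t) * (∏ z ∈ Tree u, σ (u - (N : ℤ) • z)) *
        Fintype.card G < Y₁.card) :
    ∃ B : Matrix (Fin d ⊕ Fin t) (Fin d ⊕ Fin t) ℤ, |B.det| = (Fintype.card G : ℤ) ∧
      ∀ x : (Fin d → ℝ) × (Fin t → ℝ), ∃ k : Fin d ⊕ Fin t → ℤ,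
        (x.1 - (fun i => ((B.mulVec k (Sum.inl i) : ℤ) : ℝ) / R),
          x.2 - (fun i => ((B.mulVec k (Sum.inr i) : ℤ) : ℝ))) ∈ K' := by
  sorry

/-- MODULE SC (Lattice4.lean). Copy of `Lin.lattice_data3` (Lin/Lattice3.lean) with the grid `N = 12 t n`, `δ = 1/n`, `W = 12 t`.
For each root `u ∈ [0,N)^t` pick by `hleaf` at `a = u / N` a tree `Tree u`. The family of bodies is indexed by the finite set `H` of heights
`u - N z`, `z ∈ Tree u`, with `‖T ((u - N z)/N)‖² ≤ (97/100) t`, card `≤ N^t 2^t`, `hdil` from `hwin` as `(1-2δ)⁻² (97/100) ≤ 98/100`. `σ = ε` on `H`, `1` elsewhere.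
`∏ z ∈ Tree u, σ ≤ ε ^ ⌈(155/100)^t⌉₊`. Window for the erosion: for `x ∈ [0, 1/(12 t)]^t`, `|(T x) i| ≤ t (5/2) / (12 t)`, so `hwin` applies. -/
theorem lattice_data4 : ∃ d₀ : ℕ, ∀ d ≥ d₀, ∀ t n : ℕ, n = d + t → 1000 ≤ n → 1 ≤ t →
    ((2 * (12 * (t : ℝ) * (n : ℝ))) ^ t ≤ 2 ^ (mstar2 d / 16)) →
    (((2 * (12 * (t : ℝ) * (n : ℝ))) ^ t) ^ (2 ^ t) * ((1 / 2 : ℝ) ^ (mstar2 d / 4)) ^ ⌈(155 / 100 : ℝ) ^ t⌉₊ <
      (1 / 2) * (1 / (4 * (n : ℝ))) ^ d) →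
    ∀ T : Matrix (Fin t) (Fin t) ℝ, (∀ i j, |T i j| ≤ 5 / 2) →
    (∀ a : Fin t → ℝ, ∃ A : Finset (Fin t → ℤ), TreeShape t t A ∧
      (155 / 100 : ℝ) ^ t ≤ ((A.filter fun z =>
        ∑ i, (T.mulVec (fun j => a j - (z j : ℝ)) i) ^ 2 ≤ (97 / 100) * (t : ℝ)).card : ℝ)) →
    ∀ K' : Set ((Fin d → ℝ) × (Fin t → ℝ)), Convex ℝ K' → IsCompact K' → ∀ V₀ : ℝ, 0 < V₀ →
    (∀ x : Fin t → ℝ, ∑ i, (T.mulVec x i) ^ 2 ≤ (98 / 100) * (t : ℝ) →
      ENNReal.ofReal V₀ ≤ volume {y : Fin d → ℝ | (y, x) ∈ K'}) →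
    ∃ (B : Matrix (Fin d ⊕ Fin t) (Fin d ⊕ Fin t) ℤ) (R : ℕ), 0 < R ∧
      (∀ x : (Fin d → ℝ) × (Fin t → ℝ), ∃ k : Fin d ⊕ Fin t → ℤ,
        (x.1 - (fun i => ((B.mulVec k (Sum.inl i) : ℤ) : ℝ) / R),
          x.2 - (fun i => ((B.mulVec k (Sum.inr i) : ℤ) : ℝ))) ∈ K') ∧
      (R : ℝ) ^ d * ((1 - 2 / (n : ℝ)) ^ d * V₀) / 2 ^ (efin2 d + 2) ≤ |(B.det : ℝ)| := by
  sorry

/-- MODULE SD (Params4.lean). Copy of `Lin.params3`: `t` least with `(155/100)^t ≥ 10^12 L`, `L = clog 2 (4 n)`; `(208/125)^6 ≤ (155/100)^7`.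
`t₀` arbitrary (from `height_lattice`). -/
theorem params4 (d₀ t₀ : ℕ) : ∃ n₀ : ℕ, ∀ n ≥ n₀, ∃ d t : ℕ,
    d + t = n ∧ 4 ≤ t ∧ t₀ ≤ t ∧ d₀ ≤ d ∧ 1000 ≤ n ∧
    ((2 * (12 * (t : ℝ) * (n : ℝ))) ^ t ≤ 2 ^ (mstar2 d / 16)) ∧
    (((2 * (12 * (t : ℝ) * (n : ℝ))) ^ t) ^ (2 ^ t) * ((1 / 2 : ℝ) ^ (mstar2 d / 4)) ^ ⌈(155 / 100 : ℝ) ^ t⌉₊ <
      (1 / 2) * (1 / (4 * (n : ℝ))) ^ d) ∧
    (1600000 * (t : ℝ) * ((400 * (t : ℝ) + 3) * 1660) ^ t ≤ Real.sqrt (Real.sqrt n)) ∧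
    ((10 / 9) * (16000000 * (208 / 125) ^ t) * ((1 - 2 / (n : ℝ))⁻¹) ^ d * 2 ^ (efin2 d + 2) ≤
      (n : ℝ) * (Real.log n) ^ (7 / 6 : ℝ)) := by
  sorry

end Vale.Agent.Lib.P230.Skew
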